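import Vale.Agent.P240.Sys

/-! P240 D/Defs: data for a general diagonal form. -/

namespace Vale.Agent.P240

open Matrix

variable {F : Type*} [Field F]

/-- The orthogonal group of the diagonal form `d`. -/
def OD {n : ℕ} (d : Fin n → Fˣ) : Subgroup (GL (Fin n) F) where
  carrier := {g | (g : Matrix (Fin n) (Fin n) F)ᵀ * diagonal (fun i => (d i : F)) *
    (g : Matrix (Fin n) (Fin n) F) = diagonal fun i => (d i : F)}
  one_mem' := by simp
  mul_mem' := by
    intro a b ha hb
    simp only [Set.mem_ofPred_eq, Units.val_mul, transpose_mul] at *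
    rw [mul_assoc (_ᵀ), mul_assoc (_ᵀ), ← mul_assoc _ (a : Matrix (Fin n) (Fin n) F), ha,
      ← mul_assoc, hb]
  inv_mem' := by
    intro a ha
    simp only [Set.mem_ofPred_eq] at *
    conv_lhs => rw [← ha]
    rw [← mul_assoc, ← mul_assoc, ← transpose_mul, Units.mul_inv, transpose_one, one_mul,
      mul_assoc, Units.mul_inv, mul_one]

/-- The projective involutions attached to an invertible matrix. -/
def tg (m : ℕ) (F : Type*) [Field F] (g : GL (Fin (m + 1)) F) (k : Fin m) :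
    ProjGenLinGroup (Fin (m + 1)) F :=
  ProjGenLinGroup.mk (g * rho m F k * g⁻¹)

/-- The weight attached to a matrix. -/
def wd {m : ℕ} (d : Fin (m + 1) → Fˣ) (ψ : (Fin (m + 1) → F) → ℚ) (z : Fin (m + 1) → F)
    (g : GL (Fin (m + 1)) F) : ℚ :=
  ψ fun i => (d i : F) *
    (((g⁻¹ : GL (Fin (m + 1)) F) : Matrix (Fin (m + 1)) (Fin (m + 1)) F) *ᵥ z) i ^ 2

/-- A group of rotations for the form `x^2 + e y^2`, given by its pairs `(a, b)`. -/
structure Rot (e : F) (S : Finset (F × F)) : Prop where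
  norm : ∀ p ∈ S, p.1 ^ 2 + e * p.2 ^ 2 = 1
  mul : ∀ p ∈ S, ∀ p' ∈ S, (p.1 * p'.1 - e * p.2 * p'.2, p.1 * p'.2 + p.2 * p'.1) ∈ S
  one : (1, 0) ∈ S

/-- The vanishing of all averages of `ψ` over the rotations `S` in the coordinates `k, k + 1`. -/
def Van {m : ℕ} (d : Fin (m + 1) → Fˣ) (ψ : (Fin (m + 1) → F) → ℚ) (k : Fin m)
    (S : Finset (F × F)) : Prop :=
  ∀ (x : Fin (m + 1) → F) (u v : F), ∑ p ∈ S, ψ (upd x k
    ((d k.castSucc : F) * (p.1 * u + (d k.succ / d k.castSucc : F) * p.2 * v) ^ 2)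
    ((d k.succ : F) * (p.1 * v - p.2 * u) ^ 2)) = 0

/-- The rotation matrix in the coordinates `k, k + 1`. -/
def rotm {m : ℕ} (k : Fin m) (e a b : F) : Matrix (Fin (m + 1)) (Fin (m + 1)) F :=
  fun i j => if i = k.castSucc then (if j = k.castSucc then a else if j = k.succ then -(e * b) else 0)
    else if i = k.succ then (if j = k.castSucc then b else if j = k.succ then a else 0)
    else if i = j then 1 else 0

/-- The reflection in `v` (the identity for isotropic `v`). -/
def rfm {n : ℕ} (v : Fin n → F) : Matrix (Fin n) (Fin n) F :=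
  1 - (2 / (v ⬝ᵥ v)) • vecMulVec v v

theorem rfm_sq {n : ℕ} (v : Fin n → F) : rfm v * rfm v = 1 := by
  by_cases h : v ⬝ᵥ v = 0
  · simp [rfm, h]
  · rw [rfm, sub_mul, mul_sub, mul_sub, one_mul, one_mul, mul_one, smul_mul_smul_comm,
      vecMulVec_mul_vecMulVec, vecMulVec_smul, smul_smul, sub_sub, ← add_sub_assoc, ← add_smul,
      ← sub_smul]
    have e : 2 / (v ⬝ᵥ v) + 2 / (v ⬝ᵥ v) - 2 / (v ⬝ᵥ v) * (2 / (v ⬝ᵥ v)) * (v ⬝ᵥ v) = 0 := by
      field_simp
      ring
    rw [e, zero_smul, sub_zero]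

/-- The reflection as an invertible matrix. -/
def rf {n : ℕ} (v : Fin n → F) : GL (Fin n) F := ⟨rfm v, rfm v, rfm_sq v, rfm_sq v⟩

/-- The projective orthogonal group. -/
def PO (n : ℕ) (F : Type*) [Field F] : Subgroup (ProjGenLinGroup (Fin n) F) :=
  (OG n F).map ProjGenLinGroup.mk

end Vale.Agent.P240
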