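import Vale.Agent.P240.DetA
import Vale.Agent.P240.D.Defs

/-! P240 D/Basic. As Lift.lean and DetA.lean, for an arbitrary invertible g. In mono_gl sigma is
injective because the columns of an invertible matrix are linearly independent. -/

namespace Vale.Agent.P240

open Matrix

theorem mul_DBasic {m : ℕ} {F : Type*} [Field F] (g : GL (Fin (m + 1)) F) (j j' : Fin m) :
    tg m F g j * tg m F g j' = ProjGenLinGroup.mk (g * (rho m F j * rho m F j') * g⁻¹) := by
  rw [tg, tg, ← map_mul, conj_mul]

theorem tg_sq {m : ℕ} {F : Type*} [Field F] (g : GL (Fin (m + 1)) F) (j : Fin m) :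
    tg m F g j * tg m F g j = 1 := by
  have h : rho m F j * rho m F j = 1 := by
    rw [rho, dg_mul]
    refine Units.ext ?_
    simp only [dg, Units.val_one, ← diagonal_one]
    refine congrArg diagonal (funext fun i => ?_)
    simp only [Pi.mul_apply]
    split_ifs <;> simp
  rw [mul_DBasic, h, mul_one, mul_inv_cancel, map_one]

theorem tg_comm {m : ℕ} {F : Type*} [Field F] (g : GL (Fin (m + 1)) F) (j j' : Fin m) :
    tg m F g j * tg m F g j' = tg m F g j' * tg m F g j := by
  rw [mul_DBasic, mul_DBasic, rho, rho, dg_mul, dg_mul,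
    mul_comm (fun i => if i ≤ j.castSucc then (-1 : Fˣ) else 1)]

theorem tg_indep {m : ℕ} {F : Type*} [Field F] (h2 : (2 : F) ≠ 0) (g : GL (Fin (m + 1)) F)
    (j : Fin m) : tg m F g j ∉ Subgroup.closure (tg m F g '' {j' | j' ≠ j}) := by
  intro h
  have h1 : ∀ k : Fin m, g * rho m F k * g⁻¹ ∈ Subgroup.centralizer
      {g * GeneralLinearGroup.swap F j.castSucc j.succ * g⁻¹} ↔
      (if j.castSucc ≤ k.castSucc then (-1 : Fˣ) else 1) =
        if j.succ ≤ k.castSucc then (-1 : Fˣ) else 1 := fun k => by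
    rw [Subgroup.mem_centralizer_singleton_iff, conj_mul, conj_mul, mul_left_inj, mul_right_inj,
      eq_comm]
    exact swap_Lift _ _ _
  have h3 := lift_mem (Subgroup.centralizer
      {g * GeneralLinearGroup.swap F j.castSucc j.succ * g⁻¹}) (Subgroup.center_le_centralizer _)
    (S := (fun k => g * rho m F k * g⁻¹) '' {j' | j' ≠ j}) (x := g * rho m F j * g⁻¹) ?_ ?_
  · rw [h1, if_pos le_rfl, if_neg (not_le.2 Fin.castSucc_lt_succ)] at h3
    have h4 : (-1 : F) = 1 := by simpa using congrArg Units.val h3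
    exact h2 (by linear_combination -h4)
  · rintro _ ⟨k, hk, rfl⟩
    refine (h1 k).2 (if_congr ?_ rfl rfl)
    have h4 : (k : ℕ) ≠ j := fun e => hk (Fin.ext e)
    simp only [Fin.le_def, Fin.val_castSucc, Fin.val_succ]
    omega
  · rw [Set.image_image]
    exact h

theorem mono_gl {m : ℕ} {F : Type*} [Field F] (h2 : (2 : F) ≠ 0) (g : GL (Fin (m + 1)) F)
    (hE : ∀ k, tg m F 1 k ∈ Subgroup.closure (Set.range (tg m F g))) :
    ∃ σ : Equiv.Perm (Fin (m + 1)), ∀ i j, i ≠ σ j →
      (g : Matrix (Fin (m + 1)) (Fin (m + 1)) F) i j = 0 := by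
  have h1 : ∀ j i i', i < i' → (g : Matrix (Fin (m + 1)) (Fin (m + 1)) F) i j ≠ 0 →
      (g : Matrix (Fin (m + 1)) (Fin (m + 1)) F) i' j = 0 := by
    intro j i i' hi h0
    obtain ⟨k, rfl⟩ := Fin.exists_castSucc_eq.2 (Fin.ne_last_of_lt hi)
    have a1 : rho m F k ∈ K_DetA ((g : Matrix (Fin (m + 1)) (Fin (m + 1)) F) *ᵥ Pi.single j 1) := by
      refine lift_mem _ (cen_DetA _) (S := Set.range fun k' => g * rho m F k' * g⁻¹) ?_ ?_
      · rintro _ ⟨k', rfl⟩
        exact conj_DetA _ _ j
      · rw [← Set.range_comp]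
        have a0 := hE k
        rw [tg, one_mul, inv_one, mul_one] at a0
        exact a0
    obtain ⟨c, hc⟩ := a1
    rw [mulVec_single_one] at hc
    have a2 := (mulVec_diagonal _ _ k.castSucc).symm.trans (congrFun hc k.castSucc)
    have a3 := (mulVec_diagonal _ _ i').symm.trans (congrFun hc i')
    simp only [le_refl, if_true, if_neg hi.not_ge, Units.val_neg, Units.val_one, Pi.smul_apply,
      smul_eq_mul, col_apply] at a2 a3
    rw [← mul_right_cancel₀ h0 a2] at a3
    exact mul_left_cancel₀ h2 (by linear_combination a3)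
  have hg : ∀ j j', ∑ i, ((g⁻¹ : GL (Fin (m + 1)) F) : Matrix (Fin (m + 1)) (Fin (m + 1)) F) j i *
      (g : Matrix (Fin (m + 1)) (Fin (m + 1)) F) i j' = if j = j' then 1 else 0 := fun j j' =>
    (congrFun (congrFun g.inv_mul j) j').trans (one_apply ..)
  have h3 : ∀ j, ∃ i, (g : Matrix (Fin (m + 1)) (Fin (m + 1)) F) i j ≠ 0 := by
    intro j
    by_contra h
    push Not at h
    have := hg j j
    simp [h] at this
  choose s hs using h3
  have h4 : ∀ i j, i ≠ s j → (g : Matrix (Fin (m + 1)) (Fin (m + 1)) F) i j = 0 := by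
    intro i j h
    rcases lt_or_gt_of_ne h with h | h
    · by_contra h0
      exact hs j (h1 j _ _ h h0)
    · exact h1 j _ _ h (hs j)
  have h5 : Function.Injective s := by
    intro j j' h
    by_contra hj
    have a1 := hg j j'
    have a2 := hg j j
    rw [if_neg hj, Finset.sum_eq_single (s j') (fun i _ hi => by rw [h4 i j' hi, mul_zero])
      (fun hn => absurd (Finset.mem_univ _) hn)] at a1
    rw [if_pos rfl, Finset.sum_eq_single (s j) (fun i _ hi => by rw [h4 i j hi, mul_zero])
      (fun hn => absurd (Finset.mem_univ _) hn), h, (mul_eq_zero.1 a1).resolve_right (hs j'),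
      zero_mul] at a2
    exact zero_ne_one a2
  exact ⟨Equiv.ofBijective s (Finite.injective_iff_bijective.1 h5), h4⟩

end Vale.Agent.P240
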