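import Vale.Agent.P240.D.Refl

/-! P240 D/Two. PH has index at most two in PO for odd n. Plan: for n = m + 1 odd, m > 0, tau_mem gives
mk (rf e_0) = mk (rho 0) in PH; rf_pair gives rf_sq. two: PH is normalized by PO; closure induction
along cd (the set of y with y in PH or y * mk (rf w) in PH is closed under products, since the product
of two non-squares of a finite field is a square). cent_PH: y = mk g commutes with mk (rf v) for v of
norm one, so rf (g v) = s rf v for a scalar s with s^2 = 1, s = 1 by the determinant (n odd), so g v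
is a multiple of v. Take v = e_i and v = a e_i + b e_j with a^2 + b^2 = 1, a b nonzero (circle_card):
g is scalar. -/

namespace Vale.Agent.P240

open Matrix

variable {n : ℕ} {F : Type*} [Field F]

theorem conj_DTwo {y x : ProjGenLinGroup (Fin n) F} (hy : y ∈ PO n F) (hx : x ∈ PH n F) :
    y * x * y⁻¹ ∈ PH n F := by
  obtain ⟨g, hg, rfl⟩ := hy
  unfold PH at hx ⊢
  obtain ⟨a, ha, rfl⟩ := hx
  rw [← map_inv, ← map_mul, ← map_mul]
  refine Subgroup.mem_map_of_mem _ ?_
  by_cases hn : Odd n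
  · rw [if_pos hn] at ha ⊢
    exact conj_Mem ⟨g, hg⟩ ha
  · rw [if_neg hn] at ha ⊢
    exact Subgroup.mul_mem _ (Subgroup.mul_mem _ hg ha) (Subgroup.inv_mem _ hg)

theorem comm_DTwo (hn : Odd n) {g : GL (Fin n) F} (hg : g ∈ ⁅OG n F, OG n F⁆) :
    ProjGenLinGroup.mk g ∈ PH n F := by
  unfold PH
  rw [if_pos hn]
  exact Subgroup.mem_map_of_mem _ hg

theorem rho_DTwo {m : ℕ} (hm : 0 < m) :
    rf (Pi.single 0 1 : Fin (m + 1) → F) = rho m F ⟨0, hm⟩ := by
  refine Units.ext ?_
  change rfm (Pi.single 0 1 : Fin (m + 1) → F) = diagonal fun i : Fin (m + 1) =>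
    ((if i ≤ (⟨0, hm⟩ : Fin m).castSucc then -1 else 1 : Fˣ) : F)
  have h0 : (⟨0, hm⟩ : Fin m).castSucc = 0 := rfl
  rw [h0, rfm, single_dotProduct, Pi.single_eq_same]
  ext i j
  rw [Matrix.sub_apply, Matrix.smul_apply, vecMulVec_apply, diagonal_apply, one_apply]
  by_cases hi : i = 0
  · subst hi
    by_cases hj : j = 0
    · subst hj
      simp
      norm_num
    · simp [hj, Ne.symm hj]
  · by_cases hij : i = j
    · subst hij
      simp [hi]
    · simp [hi, hij]

theorem nsq_DTwo [Finite F] {s t : F} (hs : ¬IsSquare s) (ht : ¬IsSquare t) :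
    s ≠ 0 ∧ ∃ a : F, a ≠ 0 ∧ t = a ^ 2 * s := by
  classical
  have := Fintype.ofFinite F
  have hs0 : s ≠ 0 := fun h => hs (h ▸ IsSquare.zero)
  have ht0 : t ≠ 0 := fun h => ht (h ▸ IsSquare.zero)
  have h1 : quadraticChar F (s * t) = 1 := by
    rw [map_mul, quadraticChar_neg_one_iff_not_isSquare.2 hs,
      quadraticChar_neg_one_iff_not_isSquare.2 ht]
    norm_num
  obtain ⟨b, hb⟩ := (quadraticChar_one_iff_isSquare (mul_ne_zero hs0 ht0)).1 h1
  have hb0 : b ≠ 0 := fun h => mul_ne_zero hs0 ht0 (by rw [hb, h, mul_zero])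
  refine ⟨hs0, b / s, div_ne_zero hb0 hs0, ?_⟩
  field_simp
  linear_combination hb

theorem PH_le : PH n F ≤ PO n F := by
  unfold PH PO
  split_ifs
  · exact Subgroup.map_mono (Subgroup.commutator_le_self _)
  · exact le_rfl

theorem PO_norm : PO n F ≤ Subgroup.normalizer (PH n F : Set (ProjGenLinGroup (Fin n) F)) := by
  intro y hy
  rw [Subgroup.mem_normalizer_iff]
  intro x
  refine ⟨fun hx => conj_DTwo hy hx, fun hx => ?_⟩
  have h1 := conj_DTwo (Subgroup.inv_mem _ hy) hx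
  have h2 : y⁻¹ * (y * x * y⁻¹) * y⁻¹⁻¹ = x := by group
  rwa [h2] at h1

theorem rf_sq (h2 : (2 : F) ≠ 0) (hn : Odd n) (h3 : 3 ≤ n) {v : Fin n → F}
    (hv : IsSquare (v ⬝ᵥ v)) : ProjGenLinGroup.mk (rf v) ∈ PH n F := by
  obtain ⟨a, ha⟩ := hv
  by_cases h0 : a = 0
  · have h1 : rf v = 1 := by
      refine Units.ext ?_
      change rfm v = 1
      rw [rfm, ha, h0, mul_zero, div_zero, zero_smul, sub_zero]
    rw [h1, map_one]
    exact Subgroup.one_mem _
  obtain ⟨m, rfl⟩ : ∃ m, n = m + 1 := ⟨n - 1, by omega⟩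
  have hm : 0 < m := by omega
  have he : (Pi.single 0 1 : Fin (m + 1) → F) ⬝ᵥ (Pi.single 0 1 : Fin (m + 1) → F) = 1 := by
    rw [single_dotProduct, Pi.single_eq_same, mul_one]
  have h1 := comm_DTwo hn (rf_pair h2 (u := (Pi.single 0 1 : Fin (m + 1) → F)) (v := v)
    (by rw [he]; exact one_ne_zero) h0 (by rw [he, ha]; ring))
  have h4 : ProjGenLinGroup.mk (rho m F ⟨0, hm⟩) ∈ PH (m + 1) F := by
    have h5 := tau_mem (F := F) (1 : OG (m + 1) F) ⟨0, hm⟩
    unfold tau at h5
    rwa [OneMemClass.coe_one, inv_one, one_mul, mul_one] at h5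
  rw [rho_DTwo hm, map_mul] at h1
  exact (Subgroup.mul_mem_cancel_left _ h4).1 h1

theorem two [Finite F] (h2 : (2 : F) ≠ 0) (hn : Odd n) (h3 : 3 ≤ n) {w : Fin n → F}
    (hw : ¬IsSquare (w ⬝ᵥ w)) {y : ProjGenLinGroup (Fin n) F} (hy : y ∈ PO n F) :
    y ∈ PH n F ∨ y * ProjGenLinGroup.mk (rf w) ∈ PH n F := by
  obtain ⟨g, hg, rfl⟩ := hy
  obtain ⟨r, hr⟩ : ∃ r, r = ProjGenLinGroup.mk (rf w) := ⟨_, rfl⟩
  have hrO : r ∈ PO n F := hr ▸ Subgroup.mem_map_of_mem _ (rf_mem w)
  have hrr : r * r = 1 := by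
    have h1 : rf w * rf w = 1 := Units.ext (rfm_sq w)
    rw [hr, ← map_mul, h1, map_one]
  have hri : r⁻¹ = r := inv_eq_of_mul_eq_one_right hrr
  have hc := cd h2 hg
  clear hg
  rw [← hr]
  induction hc using Subgroup.closure_induction with
  | mem x hx =>
    obtain ⟨v, rfl⟩ := hx
    by_cases hv : IsSquare (v ⬝ᵥ v)
    · exact Or.inl (rf_sq h2 hn h3 hv)
    · obtain ⟨hv0, a, ha, hw'⟩ := nsq_DTwo hv hw
      right
      rw [hr, ← map_mul]
      exact comm_DTwo hn (rf_pair h2 hv0 ha hw')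
  | one =>
    left
    rw [map_one]
    exact Subgroup.one_mem _
  | mul x y _ _ hx hy =>
    rw [map_mul]
    rcases hx with hx | hx
    · rcases hy with hy | hy
      · exact Or.inl (Subgroup.mul_mem _ hx hy)
      · right
        rw [mul_assoc]
        exact Subgroup.mul_mem _ hx hy
    · rcases hy with hy | hy
      · right
        have h1 := Subgroup.mul_mem _ hx (conj_DTwo hrO hy)
        have h4 : ProjGenLinGroup.mk x * r * (r * ProjGenLinGroup.mk y * r⁻¹) =
            ProjGenLinGroup.mk x * (r * r) * ProjGenLinGroup.mk y * r⁻¹ := by group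
        rwa [h4, hrr, mul_one, hri] at h1
      · left
        have h1 := Subgroup.mul_mem _ hx (conj_DTwo hrO hy)
        have h4 : ProjGenLinGroup.mk x * r * (r * (ProjGenLinGroup.mk y * r) * r⁻¹) =
            ProjGenLinGroup.mk x * (r * r) * ProjGenLinGroup.mk y := by group
        rwa [h4, hrr, mul_one] at h1
  | inv x _ hx =>
    rw [map_inv]
    rcases hx with hx | hx
    · exact Or.inl (Subgroup.inv_mem _ hx)
    · right
      have h1 := conj_DTwo hrO (Subgroup.inv_mem _ hx)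
      have h4 : r * (ProjGenLinGroup.mk x * r)⁻¹ * r⁻¹ = (ProjGenLinGroup.mk x)⁻¹ * r⁻¹ := by
        group
      rwa [h4, hri] at h1

end Vale.Agent.P240
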