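import Vale.Agent.P240.D.Key
import Vale.Agent.P240.D.Two

/-! P240 D/Cent. Plan: y = mk g commutes with mk (rf v) in PH for v of norm one, so
g * rf v * g⁻¹ = s • rf v for a scalar s with s^2 = 1, and s = 1 by the determinant (n odd); hence g v
is a multiple of v (the -1 eigenspace of rf v is the line of v). Take v = e_i and v = a e_i + b e_j
with a^2 + b^2 = 1, a b nonzero (circle_card, at most four points have a b = 0): g is scalar.
PH_nonab: otherwise mk (rf e_0) = 1 by cent_PH. -/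

namespace Vale.Agent.P240

open Matrix

variable {n : ℕ} {F : Type*} [Field F]

theorem pt_DCent [Finite F] (h2 : (2 : F) ≠ 0) (hq : 7 ≤ Nat.card F) :
    ∃ a b : F, a ≠ 0 ∧ b ≠ 0 ∧ a ^ 2 + b ^ 2 = 1 := by
  have hd : (Polynomial.X ^ 5 - Polynomial.X : Polynomial F).natDegree = 5 :=
    FiniteField.X_pow_card_sub_X_natDegree_eq F (by norm_num)
  obtain ⟨t, ht⟩ : ∃ t : F, t ^ 5 - t ≠ 0 := by
    by_contra! h
    cases nonempty_fintype F
    refine FiniteField.X_pow_card_sub_X_ne_zero F (p := 5) (by norm_num) ?_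
    refine Polynomial.eq_zero_of_natDegree_lt_card_of_eval_eq_zero _ Function.injective_id
      (fun t => by simpa using h t) ?_
    rw [hd, ← Nat.card_eq_fintype_card]
    omega
  have e : t ^ 5 - t = -(t * (1 - t ^ 2) * (1 + t ^ 2)) := by ring
  rw [e, neg_ne_zero, mul_ne_zero_iff, mul_ne_zero_iff] at ht
  obtain ⟨⟨h3, h4⟩, h5⟩ := ht
  refine ⟨(1 - t ^ 2) / (1 + t ^ 2), 2 * t / (1 + t ^ 2), div_ne_zero h4 h5,
    div_ne_zero (mul_ne_zero h2 h3) h5, ?_⟩
  field_simp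
  ring

theorem eig_DCent (h2 : (2 : F) ≠ 0) (hn : Odd n) {g : GL (Fin n) F} {v : Fin n → F}
    (hv : v ⬝ᵥ v = 1) (h : ProjGenLinGroup.mk g * ProjGenLinGroup.mk (rf v) =
      ProjGenLinGroup.mk (rf v) * ProjGenLinGroup.mk g) :
    ∃ c : F, (g : Matrix (Fin n) (Fin n) F) *ᵥ v = c • v := by
  rw [← map_mul, ← map_mul, ProjGenLinGroup.mk_eq_mk_iff] at h
  obtain ⟨u, hu⟩ := h
  have hr : rf v * rf v = 1 := Units.ext (rfm_sq v)
  have hs : ∀ x, x * GeneralLinearGroup.scalar (Fin n) u =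
      GeneralLinearGroup.scalar (Fin n) u * x :=
    Subgroup.mem_center_iff.1 (ProjGenLinGroup.mk_eq_one.1 (ProjGenLinGroup.mk_scalar u))
  have h1 : u ^ n = 1 := by
    have := congrArg GeneralLinearGroup.det hu
    rw [map_mul, map_mul, map_mul, mul_comm (GeneralLinearGroup.det g), mul_eq_left] at this
    simpa [Units.ext_iff] using this
  have h3 : rf v * GeneralLinearGroup.scalar (Fin n) u = g⁻¹ * rf v * g := by
    rw [mul_assoc, ← hu]
    group
  have h4 : GeneralLinearGroup.scalar (Fin n) (u * u) = 1 := by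
    have e : g⁻¹ * rf v * g * (g⁻¹ * rf v * g) = g⁻¹ * (rf v * rf v) * g := by group
    rw [hr, mul_one, inv_mul_cancel, ← h3, mul_assoc, ← mul_assoc _ (rf v), ← hs, ← mul_assoc,
      ← mul_assoc, hr, one_mul, ← map_mul] at e
    exact e
  have h5 : u ^ 2 = 1 := by
    have := congrArg (fun x : GL (Fin n) F =>
      (x : Matrix (Fin n) (Fin n) F) ⟨0, hn.pos⟩ ⟨0, hn.pos⟩) h4
    simpa [Units.ext_iff, sq] using this
  obtain ⟨k, hk⟩ := hn
  rw [hk, pow_succ, pow_mul, h5, one_pow, one_mul] at h1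
  rw [h1, map_one, mul_one] at hu
  have h6 := congrArg (fun x : GL (Fin n) F => (x : Matrix (Fin n) (Fin n) F) *ᵥ v) hu
  change ((g : Matrix (Fin n) (Fin n) F) * rfm v) *ᵥ v =
    (rfm v * (g : Matrix (Fin n) (Fin n) F)) *ᵥ v at h6
  simp only [← mulVec_mulVec, rfm, hv, div_one, sub_mulVec, one_mulVec, smul_mulVec,
    vecMulVec_mulVec, mulVec_sub, mulVec_smul, sub_right_inj, MulOpposite.op_one, one_smul,
    op_smul_eq_smul] at h6
  exact ⟨_, smul_right_injective _ h2 h6⟩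

theorem cent_PH [Finite F] (h2 : (2 : F) ≠ 0) (hq : 7 ≤ Nat.card F) (hn : Odd n) (h3 : 3 ≤ n)
    {y : ProjGenLinGroup (Fin n) F} (hy : ∀ l ∈ PH n F, y * l = l * y) : y = 1 := by
  obtain ⟨g, rfl⟩ := ProjGenLinGroup.mk_surjective y
  have key : ∀ v : Fin n → F, v ⬝ᵥ v = 1 →
      ∃ c : F, (g : Matrix (Fin n) (Fin n) F) *ᵥ v = c • v := fun v hv =>
    eig_DCent h2 hn hv (hy _ (rf_sq h2 hn h3 (hv ▸ IsSquare.one)))
  have h0 : ∀ i j, i ≠ j → (g : Matrix (Fin n) (Fin n) F) i j = 0 := fun i j hij => by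
    obtain ⟨c, hc⟩ := key (Pi.single j 1) (by simp)
    simpa [hij] using congrFun hc i
  obtain ⟨a, b, ha, hb, hab⟩ := pt_DCent h2 hq
  have h1 : ∀ i j, i ≠ j → (g : Matrix (Fin n) (Fin n) F) i i =
      (g : Matrix (Fin n) (Fin n) F) j j := fun i j hij => by
    obtain ⟨c, hc⟩ := key (Pi.single i a + Pi.single j b) (by
      simp [hij, hij.symm, ← hab, sq])
    have e1 := congrFun hc i
    have e2 := congrFun hc j
    simp [mulVec_add, hij, hij.symm, h0 i j hij, h0 j i hij.symm] at e1 e2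
    exact (mul_left_cancel₀ ha (e1.trans (mul_comm _ _))).trans
      (mul_left_cancel₀ hb (e2.trans (mul_comm _ _))).symm
  rw [ProjGenLinGroup.mk_eq_one, GeneralLinearGroup.mem_center_iff_val_mem_range_scalar]
  refine ⟨(g : Matrix (Fin n) (Fin n) F) ⟨0, hn.pos⟩ ⟨0, hn.pos⟩, ?_⟩
  ext i j
  by_cases hij : i = j
  · subst hij
    by_cases hi : ⟨0, hn.pos⟩ = i
    · simp [hi]
    · simp [h1 _ _ hi]
  · simp [hij, h0 i j hij]

theorem PH_nonab [Finite F] (h2 : (2 : F) ≠ 0) (hq : 7 ≤ Nat.card F) (hn : Odd n) (h3 : 3 ≤ n) :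
    ∃ x ∈ PH n F, ∃ y ∈ PH n F, x * y ≠ y * x := by
  by_contra! h
  have hv : (Pi.single (⟨0, by omega⟩ : Fin n) (1 : F) : Fin n → F) ⬝ᵥ
      Pi.single (⟨0, by omega⟩ : Fin n) (1 : F) = 1 := by simp
  have h1 := cent_PH h2 hq hn h3 (h _ (rf_sq h2 hn h3 (hv ▸ IsSquare.one)))
  rw [ProjGenLinGroup.mk_eq_one, GeneralLinearGroup.mem_center_iff_val_mem_range_scalar] at h1
  obtain ⟨c, hc⟩ := h1
  change _ = rfm _ at hc
  have e1 := congrFun (congrFun hc ⟨0, by omega⟩) ⟨0, by omega⟩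
  have e2 := congrFun (congrFun hc ⟨1, by omega⟩) ⟨1, by omega⟩
  simp [rfm, vecMulVec_apply] at e1 e2
  exact h2 (by linear_combination e1 - e2)

end Vale.Agent.P240
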