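import Vale.Agent.P240.D.Basic
import Vale.Agent.P240.DetB

/-! P240 D/Det. As DetB.lean. With g (sigma j) j = lambda j one has lambda j ^ 2 * d (sigma j) = d j
and (g⁻¹ *ᵥ z) j = z (sigma j) / lambda j, so wd d psi z g = psi (fun j => d (sigma j) * z (sigma j) ^ 2)
and the colours force sigma last = last. dg_det: g * rho j' * g⁻¹ = dg (fun i => if sigma.symm i <=
j'.castSucc then -1 else 1); by lift_mem elements of closure (tg 1 '' Iic j) lift to diagonal matrices
with x i i = x last last for i > j.castSucc. -/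

namespace Vale.Agent.P240

open Matrix

theorem mono_col {m : ℕ} {F : Type*} [Field F] {d : Fin (m + 1) → Fˣ} {X₀ : Finset F}
    {ψ : (Fin (m + 1) → F) → ℚ} {z : Fin (m + 1) → F} (hz : ψ (fun i => (d i : F) * z i ^ 2) ≠ 0)
    (hψ : ∀ x, ψ x ≠ 0 → x (Fin.last m) ∈ X₀ ∧ ∀ k : Fin m, x k.castSucc ∉ X₀)
    {g : GL (Fin (m + 1)) F} (hg : g ∈ OD d) {σ : Equiv.Perm (Fin (m + 1))}
    (hσ : ∀ i j, i ≠ σ j → (g : Matrix (Fin (m + 1)) (Fin (m + 1)) F) i j = 0) :
    (wd d ψ z g ≠ 0 → σ (Fin.last m) = Fin.last m) ∧ (σ = 1 → wd d ψ z g = wd d ψ z 1) := by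
  have hw : wd d ψ z g = ψ fun j => (d (σ j) : F) * z (σ j) ^ 2 := by
    refine congrArg ψ (funext fun j => ?_)
    have h1 := congrFun (congrFun (show _ = _ from hg) j) j
    rw [mul_apply, diagonal_apply_eq, Finset.sum_eq_single (σ j)
      (fun i _ hi => by rw [hσ i j hi, mul_zero]) (fun hn => absurd (Finset.mem_univ _) hn),
      mul_diagonal, transpose_apply] at h1
    have h2 : (g : Matrix (Fin (m + 1)) (Fin (m + 1)) F) *ᵥ
        ((g⁻¹ : GL (Fin (m + 1)) F) : Matrix (Fin (m + 1)) (Fin (m + 1)) F) *ᵥ z = z := by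
      rw [mulVec_mulVec, Units.mul_inv, one_mulVec]
    have h3 := congrFun h2 (σ j)
    rw [mulVec, dotProduct, Finset.sum_eq_single j
      (fun i _ hi => by rw [hσ _ i (σ.injective.ne hi.symm), zero_mul])
      (fun hn => absurd (Finset.mem_univ _) hn)] at h3
    rw [← h1, ← h3]
    ring
  refine ⟨fun h => ?_, fun h => ?_⟩
  · by_contra hn
    obtain ⟨k, hk⟩ := Fin.exists_castSucc_eq.2 hn
    have h3 := (hψ _ (hw ▸ h)).1
    beta_reduce at h3
    rw [← hk] at h3
    exact (hψ _ hz).2 k h3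
  · rw [hw, h]
    simp [wd]

theorem key_DDet {m : ℕ} {F : Type*} [Field F] (h2 : (2 : F) ≠ 0) {g : GL (Fin (m + 1)) F}
    {σ : Equiv.Perm (Fin (m + 1))}
    (hσ : ∀ i j, i ≠ σ j → (g : Matrix (Fin (m + 1)) (Fin (m + 1)) F) i j = 0)
    (hl : σ (Fin.last m) = Fin.last m) {j j' : Fin m}
    (h : tg m F g j' ∈ Subgroup.closure (tg m F 1 '' Set.Iic j)) {a : Fin (m + 1)}
    (ha : a ≤ j'.castSucc) : σ a ≤ j.castSucc := by
  have h0 : ∀ b, (g : Matrix (Fin (m + 1)) (Fin (m + 1)) F) (σ b) b ≠ 0 := fun b hb => by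
    have e := congrFun (congrFun g.inv_mul b) b
    rw [mul_apply, one_apply_eq, Finset.sum_eq_single (σ b)
      (fun i _ hi => by rw [hσ i b hi, mul_zero]) (fun hn => absurd (Finset.mem_univ _) hn), hb,
      mul_zero] at e
    exact zero_ne_one e
  refine not_lt.1 fun hlt => ?_
  have e : tg m F 1 '' Set.Iic j = ProjGenLinGroup.mk '' (rho m F '' Set.Iic j) := by
    rw [Set.image_image]
    refine Set.image_congr fun k _ => ?_
    simp [tg]
  rw [e] at h
  have h1 := lift_mem (com_DetB (single (σ a) (Fin.last m) (1 : F))) (cen_DetB _) (by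
    rintro _ ⟨k, hk, rfl⟩
    have hk1 : ¬ σ a ≤ k.castSucc := not_le.2 ((Fin.castSucc_le_castSucc_iff.2 hk).trans_lt hlt)
    have hk2 : ¬ Fin.last m ≤ k.castSucc := not_le.2 (Fin.castSucc_lt_last k)
    show diagonal _ * _ = _ * diagonal _
    ext i i'
    rw [diagonal_mul, mul_diagonal, single_apply]
    split_ifs with h3
    · obtain ⟨rfl, rfl⟩ := h3
      simp [hk1, hk2]
    all_goals simp) h
  set x := g * rho m F j' * g⁻¹ with hx
  have h3 : (x : Matrix (Fin (m + 1)) (Fin (m + 1)) F) (σ a) (σ a) =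
      (x : Matrix (Fin (m + 1)) (Fin (m + 1)) F) (Fin.last m) (Fin.last m) := by
    have h4 : (x : Matrix (Fin (m + 1)) (Fin (m + 1)) F) * single (σ a) (Fin.last m) (1 : F) =
      single (σ a) (Fin.last m) (1 : F) * (x : Matrix (Fin (m + 1)) (Fin (m + 1)) F) := h1
    have h5 := congrFun (congrFun h4 (σ a)) (Fin.last m)
    rwa [mul_single_apply_same, single_mul_apply_same, mul_one, one_mul] at h5
  have h4 : ∀ b, (x : Matrix (Fin (m + 1)) (Fin (m + 1)) F) (σ b) (σ b) =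
      ((if b ≤ j'.castSucc then -1 else 1 : Fˣ) : F) := fun b => by
    have h5 : x * g = g * rho m F j' := by
      rw [hx, inv_mul_cancel_right]
    have h7 := congrArg Units.val h5
    rw [Units.val_mul, Units.val_mul] at h7
    have h6 := congrFun (congrFun h7 (σ b)) b
    rw [mul_apply, Finset.sum_eq_single (σ b)
      (fun i _ hi => by rw [hσ i b hi, mul_zero]) (fun hn => absurd (Finset.mem_univ _) hn)] at h6
    refine mul_right_cancel₀ (h0 b) (h6.trans ?_)
    show (_ * diagonal _ : Matrix (Fin (m + 1)) (Fin (m + 1)) F) _ _ = _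
    rw [mul_diagonal, mul_comm]
  have h5 := h4 (Fin.last m)
  rw [hl, ← h3, h4, if_pos ha, if_neg (not_le.2 (Fin.castSucc_lt_last j'))] at h5
  refine h2 ?_
  rw [Units.val_neg, Units.val_one] at h5
  linear_combination -h5

theorem mono_le {m : ℕ} {F : Type*} [Field F] (h2 : (2 : F) ≠ 0) {g : GL (Fin (m + 1)) F}
    {σ : Equiv.Perm (Fin (m + 1))}
    (hσ : ∀ i j, i ≠ σ j → (g : Matrix (Fin (m + 1)) (Fin (m + 1)) F) i j = 0)
    (hl : σ (Fin.last m) = Fin.last m) :
    (∀ j j', tg m F g j' ∈ Subgroup.closure (tg m F 1 '' Set.Iic j) → j' ≤ j) ∧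
      (∀ j, tg m F g j ≠ 1) ∧
      ((∀ j, tg m F g j ∈ Subgroup.closure (tg m F 1 '' Set.Iic j)) → σ = 1) := by
  refine ⟨fun j j' h => ?_, fun j h => tg_indep h2 g j (h ▸ one_mem _), fun h => ?_⟩
  · have h3 : (Finset.Iic j'.castSucc).card ≤ (Finset.Iic j.castSucc).card :=
      Finset.card_le_card_of_injOn σ (fun a ha => Finset.mem_coe.2 (Finset.mem_Iic.2
        (key_DDet h2 hσ hl h (Finset.mem_Iic.1 (Finset.mem_coe.1 ha))))) σ.injective.injOn
    rw [Fin.card_Iic, Fin.card_Iic] at h3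
    exact Fin.le_def.2 (Nat.le_of_succ_le_succ h3)
  · have h3 : ∀ a, (σ a : ℕ) ≤ a := fun a => by
      rcases Fin.eq_castSucc_or_eq_last a with ⟨k, rfl⟩ | rfl
      · exact key_DDet h2 hσ hl (h k) le_rfl
      · rw [hl]
    have h4 := (Finset.sum_eq_sum_iff_of_le fun a _ => h3 a).1
      (Equiv.sum_comp σ fun a => (a : ℕ))
    exact Equiv.ext fun j => Fin.ext (h4 j (Finset.mem_univ j))

end Vale.Agent.P240
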