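import Vale.Agent.P240.D.Defs

/-! P240 D/Face. Rotation matrices and averaging (compare Face.lean). Plan: rot_spec: B has matrix
rotm k e a b and inverse rotm k e a (-b). avg: reindex the sum by g to g * B p (Equiv.mulRight in
OD d), average over p in S (nonempty by Rot.one); (g * B)⁻¹ *ᵥ z = B⁻¹ *ᵥ y with y = g⁻¹ *ᵥ z, whose
colours are upd (colours of y) k .. .., so the inner sum vanishes by Van. -/

namespace Vale.Agent.P240

open Matrix

theorem two_DFace {ι F : Type*} [Fintype ι] [DecidableEq ι] [Field F] {r s : ι} (h : r ≠ s)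
    (a b : F) (y : ι → F) :
    ∑ j, (if j = r then a else if j = s then b else 0) * y j = a * y r + b * y s := by
  have h1 : ∀ j, (if j = r then a else if j = s then b else 0) * y j =
      (if j = r then a * y j else 0) + if j = s then b * y j else 0 := by
    intro j
    by_cases h1 : j = r
    · subst h1
      simp [h]
    · by_cases h2 : j = s <;> simp [h1, h2, h.symm]
  simp only [h1, Finset.sum_add_distrib, Finset.sum_ite_eq', Finset.mem_univ, if_true]

theorem mulVec_DFace {m : ℕ} {F : Type*} [Field F] (k : Fin m) (e a b : F) (y : Fin (m + 1) → F)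
    (i : Fin (m + 1)) : (rotm k e a b *ᵥ y) i =
      if i = k.castSucc then a * y k.castSucc + -(e * b) * y k.succ
      else if i = k.succ then b * y k.castSucc + a * y k.succ else y i := by
  have h : k.castSucc ≠ k.succ := (Fin.castSucc_lt_succ).ne
  simp only [rotm, mulVec, dotProduct]
  by_cases h1 : i = k.castSucc
  · simp only [if_pos h1, two_DFace h]
  · by_cases h2 : i = k.succ
    · simp only [if_neg h1, if_pos h2, two_DFace h]
    · simp [if_neg h1, if_neg h2]

theorem mul_DFace {m : ℕ} {F : Type*} [Field F] (k : Fin m) {e a b : F}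
    (hab : a ^ 2 + e * b ^ 2 = 1) : rotm k e a b * rotm k e a (-b) = 1 := by
  have h : k.castSucc ≠ k.succ := (Fin.castSucc_lt_succ).ne
  refine Matrix.ext_iff_mulVec.2 fun y => funext fun i => ?_
  rw [← mulVec_mulVec, one_mulVec]
  simp only [mulVec_DFace, if_true, if_neg h.symm]
  by_cases h1 : i = k.castSucc
  · rw [if_pos h1, h1]
    linear_combination y k.castSucc * hab
  · by_cases h2 : i = k.succ
    · rw [if_neg h1, if_pos h2, h2]
      linear_combination y k.succ * hab
    · simp only [if_neg h1, if_neg h2]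

theorem comm_DFace {m : ℕ} {F : Type*} [Field F] (k : Fin m) (e a b : F) {d : Fin (m + 1) → F}
    (hd : d k.castSucc = d k.succ) : rotm k e a b * diagonal d = diagonal d * rotm k e a b := by
  ext i j
  simp only [mul_diagonal, diagonal_mul, rotm]
  split_ifs <;> simp_all [mul_comm]

theorem tr_DFace {m : ℕ} {F : Type*} [Field F] (k : Fin m) {e : F} (a b : F) {d : Fin (m + 1) → F}
    (hd : d k.castSucc * e = d k.succ) :
    (rotm k e a b)ᵀ * diagonal d = diagonal d * rotm k e a (-b) := by
  have h : k.castSucc ≠ k.succ := (Fin.castSucc_lt_succ).ne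
  have h' := h.symm
  ext i j
  simp only [mul_diagonal, diagonal_mul, rotm, transpose_apply]
  by_cases h1 : i = k.castSucc
  · subst h1
    by_cases h3 : j = k.castSucc
    · subst h3
      simp [mul_comm]
    · by_cases h4 : j = k.succ
      · subst h4
        simp only [if_neg h', if_true]
        linear_combination (-b) * hd
      · simp [h3, h4]
  · by_cases h2 : i = k.succ
    · subst h2
      by_cases h3 : j = k.castSucc
      · subst h3
        simp only [if_neg h', if_true]
        linear_combination (-b) * hd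
      · by_cases h4 : j = k.succ
        · subst h4
          simp [h', mul_comm]
        · simp [h3, h4, h']
    · by_cases h5 : i = j
      · subst h5
        simp [h1, h2]
      · have h6 : ¬ j = i := fun e => h5 e.symm
        simp [h1, h2, h5, h6]

theorem rot_spec {m : ℕ} {F : Type*} [Field F] (d : Fin (m + 1) → Fˣ) (k : Fin m) {a b : F}
    (h : a ^ 2 + (d k.succ / d k.castSucc : F) * b ^ 2 = 1) :
    ∃ B : GL (Fin (m + 1)) F, B ∈ OD d ∧
      (B : Matrix (Fin (m + 1)) (Fin (m + 1)) F) = rotm k (d k.succ / d k.castSucc : F) a b ∧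
      ((B⁻¹ : GL (Fin (m + 1)) F) : Matrix (Fin (m + 1)) (Fin (m + 1)) F) =
        rotm k (d k.succ / d k.castSucc : F) a (-b) ∧
      ∀ j, j ≠ k → B * rho m F j = rho m F j * B := by
  have h1 := mul_DFace k h
  have h2 : (d k.castSucc : F) * (d k.succ / d k.castSucc : F) = d k.succ :=
    mul_div_cancel₀ _ (d k.castSucc).ne_zero
  let U : GL (Fin (m + 1)) F := ⟨rotm k (d k.succ / d k.castSucc : F) a b,
    rotm k (d k.succ / d k.castSucc : F) a (-b), h1, mul_eq_one_comm.1 h1⟩
  refine ⟨U, ?_, rfl, rfl, fun j hj => ?_⟩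
  · show (rotm k (d k.succ / d k.castSucc : F) a b)ᵀ * diagonal (fun i => (d i : F)) *
      rotm k (d k.succ / d k.castSucc : F) a b = diagonal fun i => (d i : F)
    rw [tr_DFace k a b (d := fun i => (d i : F)) h2, mul_assoc, mul_eq_one_comm.1 h1, mul_one]
  · refine Units.ext (comm_DFace k _ a b ?_)
    have h4 : k.castSucc ≤ j.castSucc ↔ k.succ ≤ j.castSucc := by
      have h5 : (j : ℕ) ≠ k := fun e => hj (Fin.ext e)
      simp only [Fin.le_def, Fin.val_castSucc, Fin.val_succ]
      omega
    simp only [h4]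

theorem avg {m : ℕ} {F : Type*} [Field F] (d : Fin (m + 1) → Fˣ) [Fintype (OD d)]
    {ψ : (Fin (m + 1) → F) → ℚ} {k : Fin m} {S : Finset (F × F)}
    (hS : Rot (d k.succ / d k.castSucc : F) S) (hψ : Van d ψ k S) (z : Fin (m + 1) → F)
    (Ψ : GL (Fin (m + 1)) F → ℚ)
    (hΨ : ∀ p ∈ S, ∀ B : GL (Fin (m + 1)) F, B ∈ OD d →
      (B : Matrix (Fin (m + 1)) (Fin (m + 1)) F) = rotm k (d k.succ / d k.castSucc : F) p.1 p.2 →
      (∀ j, j ≠ k → B * rho m F j = rho m F j * B) → ∀ g, Ψ (g * B) = Ψ g) :
    ∑ g : OD d, wd d ψ z g * Ψ g = 0 := by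
  have h : k.castSucc ≠ k.succ := (Fin.castSucc_lt_succ).ne
  let y : OD d → Fin (m + 1) → F := fun g =>
    (((g : GL (Fin (m + 1)) F)⁻¹ : GL (Fin (m + 1)) F) : Matrix (Fin (m + 1)) (Fin (m + 1)) F) *ᵥ z
  have h1 : ∀ p ∈ S, ∑ g : OD d, wd d ψ z g * Ψ g =
      ∑ g : OD d, ψ (upd (fun i => (d i : F) * y g i ^ 2) k
        ((d k.castSucc : F) *
          (p.1 * y g k.castSucc + (d k.succ / d k.castSucc : F) * p.2 * y g k.succ) ^ 2)
        ((d k.succ : F) * (p.1 * y g k.succ - p.2 * y g k.castSucc) ^ 2)) * Ψ g := by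
    intro p hp
    obtain ⟨B, hB, hm, hi, hc⟩ := rot_spec d k (hS.norm p hp)
    rw [← Equiv.sum_comp (Equiv.mulRight (⟨B, hB⟩ : OD d))]
    refine Finset.sum_congr rfl fun g _ => ?_
    rw [Equiv.coe_mulRight, Subgroup.coe_mul, hΨ p hp B hB hm hc]
    refine congrArg (fun t => ψ t * Ψ g) (funext fun i => ?_)
    rw [_root_.mul_inv_rev, Units.val_mul, ← mulVec_mulVec, hi, mulVec_DFace, upd]
    by_cases h2 : i = k.succ
    · rw [h2, Function.update_self, if_neg h.symm, if_pos rfl]
      simp only [y]
      ring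
    · rw [Function.update_of_ne h2, if_neg h2]
      by_cases h3 : i = k.castSucc
      · rw [h3, Function.update_self, if_pos rfl]
        simp only [y]
        ring
      · rw [Function.update_of_ne h3, if_neg h3]
  have h2 := Finset.sum_congr rfl h1
  rw [Finset.sum_const, Finset.sum_comm] at h2
  have h3 := hψ
  unfold Van at h3
  simp only [← Finset.sum_mul, h3, zero_mul, Finset.sum_const_zero, nsmul_eq_mul] at h2
  exact (mul_eq_zero.1 h2).resolve_left (Nat.cast_ne_zero.2 (Finset.card_ne_zero.2 ⟨(1, 0), hS.one⟩))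

end Vale.Agent.P240
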