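import Vale.Agent.P240.D.Defs

/-! P240 D/GS2. Golod-Shafarevich count with position dependent data. -/

namespace Vale.Agent.P240

open Matrix

/-- Functions on words of length `m` with the support and relation conditions. -/
def N_GS2 {C R : Type*} [Fintype C] [DecidableEq C] (w : ℕ → R → C → C → ℚ) (X : ℕ → Finset C)
    (m : ℕ) : Submodule ℚ ((Fin m → C) → ℚ) where
  carrier := {ψ | (∀ x, ψ x ≠ 0 → ∀ i : Fin m, x i ∈ X (m - i)) ∧
    ∀ (x : Fin m → C) (i j : Fin m), (j : ℕ) = i + 1 → ∀ ρ,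
      ∑ s, ∑ t, w (m - i) ρ s t * ψ (Function.update (Function.update x i s) j t) = 0}
  zero_mem' := ⟨fun x h => absurd rfl h, fun x i j _ ρ => by simp⟩
  add_mem' := by
    rintro a b ⟨a1, a2⟩ ⟨b1, b2⟩
    refine ⟨fun x h => ?_, fun x i j hj ρ => ?_⟩
    · by_cases h0 : a x = 0
      · exact b1 x fun h' => h (by rw [Pi.add_apply, h0, h', add_zero])
      · exact a1 x h0
    · simp only [Pi.add_apply, mul_add, Finset.sum_add_distrib, a2 x i j hj ρ, b2 x i j hj ρ,
        add_zero]
  smul_mem' := by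
    rintro r a ⟨a1, a2⟩
    refine ⟨fun x h => a1 x fun h' => h (by rw [Pi.smul_apply, h', smul_zero]),
      fun x i j hj ρ => ?_⟩
    have h := congrArg (fun y => r * y) (a2 x i j hj ρ)
    simp only [Finset.mul_sum, mul_zero] at h
    rw [← h]
    exact Finset.sum_congr rfl fun s _ => Finset.sum_congr rfl fun t _ => by
      rw [Pi.smul_apply, smul_eq_mul]
      ring

/-- Fixing the first letter. -/
def tl_GS2 {C R : Type*} [Fintype C] [DecidableEq C] (w : ℕ → R → C → C → ℚ) (X : ℕ → Finset C)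
    (m : ℕ) (a : C) : N_GS2 w X (m + 1) →ₗ[ℚ] N_GS2 w X m :=
  (LinearMap.funLeft ℚ ℚ fun x : Fin m → C => (Fin.cons a x : Fin (m + 1) → C)).restrict (by
    rintro ψ ⟨h1, h2⟩
    refine ⟨fun x hx i => ?_, fun x i j hj ρ => ?_⟩
    · have h := h1 _ hx i.succ
      simpa using h
    · have h := h2 (Fin.cons a x) i.succ j.succ (by simp [hj]) ρ
      simpa only [LinearMap.funLeft_apply, Fin.cons_update, Fin.val_succ,
        Nat.add_sub_add_right] using h)

theorem step_GS2 {C R : Type*} [Fintype C] [DecidableEq C] [Fintype R] (w : ℕ → R → C → C → ℚ)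
    (X : ℕ → Finset C) (m : ℕ) :
    (X (m + 2)).card * Module.finrank ℚ (N_GS2 w X (m + 1)) ≤
      Module.finrank ℚ (N_GS2 w X (m + 2)) +
        Fintype.card R * Module.finrank ℚ (N_GS2 w X m) := by
  let L : N_GS2 w X (m + 2) →ₗ[ℚ] (X (m + 2) → N_GS2 w X (m + 1)) :=
    LinearMap.pi fun s => tl_GS2 w X (m + 1) s
  let T : (X (m + 2) → N_GS2 w X (m + 1)) →ₗ[ℚ] (R → N_GS2 w X m) :=
    LinearMap.pi fun ρ => ∑ s : X (m + 2), ∑ t, w (m + 2) ρ s t • (tl_GS2 w X m t ∘ₗ LinearMap.proj s)
  have hk : LinearMap.ker T ≤ LinearMap.range L := by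
    intro f hf
    have hT : ∀ ρ (x : Fin m → C), ∑ s : X (m + 2), ∑ t, w (m + 2) ρ s t * (f s).1 (Fin.cons t x) = 0 := by
      intro ρ x
      have h := congrFun (congrArg Subtype.val (congrFun (LinearMap.mem_ker.1 hf) ρ)) x
      simpa [T, tl_GS2, Finset.sum_apply] using h
    refine ⟨⟨fun y => if h : y 0 ∈ X (m + 2) then (f ⟨y 0, h⟩).1 (Fin.tail y) else 0, ?_, ?_⟩, ?_⟩
    · intro y hy i
      by_cases h : y 0 ∈ X (m + 2)
      · simp only [dif_pos h] at hy
        refine Fin.cases ?_ (fun i' => ?_) i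
        · simpa using h
        · simpa [Fin.tail] using (f ⟨y 0, h⟩).2.1 _ hy i'
      · simp [dif_neg h] at hy
    · intro x i j hj ρ
      obtain ⟨j', rfl⟩ : ∃ j', j = Fin.succ j' :=
        ⟨j.pred (by rintro rfl; simp at hj), by simp⟩
      revert hj
      refine Fin.cases (fun hj => ?_) (fun i' hj => ?_) i
      · obtain rfl : j' = 0 := Fin.ext (by simpa using hj)
        have e : ∀ s t, Function.update (Function.update x 0 s) (Fin.succ 0) t =
            (Fin.cons s (Fin.cons t (Fin.tail (Fin.tail x))) : Fin (m + 2) → C) := by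
          intro s t
          rw [← Fin.cons_self_tail x, Fin.update_cons_zero, ← Fin.cons_update,
            ← Fin.cons_self_tail (Fin.tail x), Fin.update_cons_zero]
          simp
        simp only [e, Fin.cons_zero, Fin.tail_cons, Fin.val_zero, Nat.sub_zero]
        refine Eq.trans ?_ (hT ρ (Fin.tail (Fin.tail x)))
        rw [← Finset.sum_subset (Finset.subset_univ (X (m + 2))), ← Finset.sum_coe_sort (X (m + 2))]
        · exact Finset.sum_congr rfl fun s _ => by simp only [dif_pos s.2]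
        · intro s _ hs
          simp [dif_neg hs]
      · have e : ∀ s t, Function.update (Function.update x i'.succ s) j'.succ t =
            (Fin.cons (x 0) (Function.update (Function.update (Fin.tail x) i' s) j' t) :
              Fin (m + 2) → C) := by
          intro s t
          rw [Fin.cons_update, Fin.cons_update, Fin.cons_self_tail]
        simp only [e, Fin.cons_zero, Fin.tail_cons]
        by_cases h : x 0 ∈ X (m + 2)
        · simp only [dif_pos h]
          rw [Fin.val_succ, show m + 2 - ((i' : ℕ) + 1) = m + 1 - i' by omega]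
          exact (f ⟨x 0, h⟩).2.2 _ i' j' (by simpa using hj) ρ
        · simp [dif_neg h]
    · funext s
      refine Subtype.ext (funext fun x => ?_)
      simp [L, tl_GS2]
  have h1 := T.finrank_range_add_finrank_ker
  have h2 := (Submodule.finrank_mono hk).trans L.finrank_range_le
  have h3 := (LinearMap.range T).finrank_le
  rw [Module.finrank_pi_fintype, Finset.sum_const, Finset.card_univ, smul_eq_mul] at h1 h3
  rw [Fintype.card_coe] at h1
  omega

theorem base_GS2 {C R : Type*} [Fintype C] [DecidableEq C] (w : ℕ → R → C → C → ℚ)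
    (X : ℕ → Finset C) : Module.finrank ℚ (N_GS2 w X 0) ≤ 1 ∧
      (X 1).card ≤ Module.finrank ℚ (N_GS2 w X 1) := by
  constructor
  · have h := (N_GS2 w X 0).finrank_le
    simpa using h
  · let L : N_GS2 w X 1 →ₗ[ℚ] (X 1 → ℚ) :=
      (LinearMap.funLeft ℚ ℚ fun s : X 1 => fun _ : Fin 1 => (s : C)) ∘ₗ Submodule.subtype _
    have hL : Function.Surjective L := by
      intro f
      refine ⟨⟨fun y => if h : y 0 ∈ X 1 then f ⟨y 0, h⟩ else 0, ?_, ?_⟩, ?_⟩
      · intro y hy i
        by_cases h : y 0 ∈ X 1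
        · obtain rfl : i = 0 := Subsingleton.elim _ _
          simpa using h
        · simp [dif_neg h] at hy
      · intro x i j hj
        have := j.2
        omega
      · funext s
        simp [L]
    have h := LinearMap.finrank_le_finrank_of_surjective hL
    simpa using h

theorem ind_GS2 {C R : Type*} [Fintype C] [DecidableEq C] [Fintype R] (w : ℕ → R → C → C → ℚ)
    (X : ℕ → Finset C) (a₁ M : ℕ) (h1 : ∀ k, k < M → a₁ ≤ (X (k + 2)).card) (h0 : (X 1).Nonempty)
    (hr : Fintype.card R + (X 1).card * (X 1).card ≤ (X 1).card * a₁) (m : ℕ) (hm : m ≤ M) :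
    (X 1).card * Module.finrank ℚ (N_GS2 w X m) ≤ Module.finrank ℚ (N_GS2 w X (m + 1)) ∧
      0 < Module.finrank ℚ (N_GS2 w X (m + 1)) := by
  have ha : 0 < (X 1).card := h0.card_pos
  induction m with
  | zero =>
    obtain ⟨b1, b2⟩ := base_GS2 w X
    exact ⟨((Nat.mul_le_mul_left _ b1).trans_eq (mul_one _)).trans b2, ha.trans_le b2⟩
  | succ m ih =>
    obtain ⟨i1, i2⟩ := ih (by omega)
    have h6 := (Nat.mul_le_mul_right _ (h1 m (by omega))).trans (step_GS2 w X m)
    have h2 : (X 1).card * Module.finrank ℚ (N_GS2 w X (m + 1)) ≤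
        Module.finrank ℚ (N_GS2 w X (m + 2)) := by
      refine Nat.le_of_mul_le_mul_left ?_ ha
      have h3 := Nat.mul_le_mul_left (X 1).card h6
      have h4 := Nat.mul_le_mul_right (Module.finrank ℚ (N_GS2 w X (m + 1))) hr
      have h5 := Nat.mul_le_mul_left (Fintype.card R) i1
      nlinarith
    exact ⟨h2, (Nat.mul_pos ha i2).trans_le h2⟩

theorem gs2 {C R : Type*} [Fintype C] [DecidableEq C] [Fintype R] (m : ℕ)
    (w : Fin m → R → C → C → ℚ) (X₀ : Finset C) (X₁ : Fin m → Finset C) (a₁ : ℕ)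
    (h1 : ∀ k, a₁ ≤ (X₁ k).card) (h0 : X₀.Nonempty)
    (hr : Fintype.card R + X₀.card * X₀.card ≤ X₀.card * a₁) :
    ∃ ψ : (Fin (m + 1) → C) → ℚ, ψ ≠ 0 ∧
      (∀ x, ψ x ≠ 0 → x (Fin.last m) ∈ X₀ ∧ ∀ k : Fin m, x k.castSucc ∈ X₁ k) ∧
      ∀ (x : Fin (m + 1) → C) (k : Fin m) (ρ : R), ∑ s, ∑ t, w k ρ s t * ψ (upd x k s t) = 0 := by
  let X : ℕ → Finset C := fun j => if h : m + 1 - j < m then X₁ ⟨m + 1 - j, h⟩ else X₀
  let W : ℕ → R → C → C → ℚ := fun j => if h : m + 1 - j < m then w ⟨m + 1 - j, h⟩ else 0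
  have e0 : X 1 = X₀ := dif_neg (by omega)
  have e1 : ∀ k : Fin m, X (m + 1 - k) = X₁ k ∧ W (m + 1 - k) = w k := fun k => by
    have hk := k.2
    have e : m + 1 - (m + 1 - k) = k := by omega
    simp only [X, W, e, dif_pos hk, Fin.eta, and_self]
  obtain ⟨⟨ψ, h3, h2⟩, hne⟩ := Module.finrank_pos_iff_exists_ne_zero.1
    (ind_GS2 W X a₁ m (fun k hk => by
      rw [show X (k + 2) = X₁ ⟨m + 1 - (k + 2), by omega⟩ from dif_pos (by omega)]
      exact h1 _) (by rwa [e0]) (by rwa [e0]) m le_rfl).2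
  refine ⟨ψ, fun h => hne (Subtype.ext h), fun x hx => ⟨?_, fun k => ?_⟩, fun x k ρ => ?_⟩
  · have h := h3 x hx (Fin.last m)
    rwa [Fin.val_last, Nat.add_sub_cancel_left, e0] at h
  · have h := h3 x hx k.castSucc
    rwa [Fin.val_castSucc, (e1 k).1] at h
  · have h := h2 x k.castSucc k.succ (by simp) ρ
    rwa [Fin.val_castSucc, (e1 k).2] at h

end Vale.Agent.P240
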