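import Vale.Agent.P240.D.Defs

/-! P240 D/Key. Counting rotation relations. Plan: wS is constant on the orbits y to
(a u + e b v, a v - b u), p in S (reparametrize S by multiplication with a fixed element, injective
hence bijective on the finite S); for y nonzero the map p to p y is injective (norm of y nonzero:
linear algebra; norm zero: i = v / u, p y = u (a + e b i) (1, i), and a - e b i is the inverse of
a + e b i). So each value other than wS 0 0 has a fibre with at least card S nonzero vectors.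
circle_card: t to ((1 - e t^2) / (1 + e t^2), 2 t / (1 + e t^2)) is injective where 1 + e t^2 is
nonzero (at most two exceptions) and misses (-1, 0). -/

namespace Vale.Agent.P240

open Matrix

/-- Number of rotations in `S` taking `(u, v)` to a vector with colours `(s, t)`. -/
def wS {F : Type*} [Field F] [DecidableEq F] (S : Finset (F × F)) (d₁ d₂ e u v s t : F) : ℚ :=
  ((S.filter fun p => d₁ * (p.1 * u + e * p.2 * v) ^ 2 = s ∧
    d₂ * (p.1 * v - p.2 * u) ^ 2 = t).card : ℚ)

theorem ws_le_DKey {F : Type*} [Field F] [DecidableEq F] {e : F} {S : Finset (F × F)}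
    (hS : Rot e S) {q : F × F} (hq : q ∈ S) (P : F × F → Prop) [DecidablePred P] :
    (S.filter fun p => P (p.1 * q.1 - e * p.2 * q.2, p.1 * q.2 + p.2 * q.1)).card =
      (S.filter P).card := by
  have n1 := hS.norm q hq
  have hinj : Function.Injective
      fun p : F × F => (p.1 * q.1 - e * p.2 * q.2, p.1 * q.2 + p.2 * q.1) := by
    intro p p' h
    have k1 : p.1 * q.1 - e * p.2 * q.2 = p'.1 * q.1 - e * p'.2 * q.2 := congrArg Prod.fst h
    have k2 : p.1 * q.2 + p.2 * q.1 = p'.1 * q.2 + p'.2 * q.1 := congrArg Prod.snd h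
    refine Prod.ext ?_ ?_
    · linear_combination q.1 * k1 + e * q.2 * k2 - (p.1 - p'.1) * n1
    · linear_combination q.1 * k2 - q.2 * k1 - (p.2 - p'.2) * n1
  have him : S.image (fun p : F × F => (p.1 * q.1 - e * p.2 * q.2, p.1 * q.2 + p.2 * q.1)) = S := by
    refine Finset.eq_of_subset_of_card_le (fun x hx => ?_) ?_
    · obtain ⟨p, hp, rfl⟩ := Finset.mem_image.1 hx
      exact hS.mul p hp q hq
    · rw [Finset.card_image_of_injective _ hinj]
  conv_rhs => rw [← him, Finset.filter_image, Finset.card_image_of_injective _ hinj]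

theorem ws_orbit_DKey {F : Type*} [Field F] [DecidableEq F] {e : F} {S : Finset (F × F)}
    (hS : Rot e S) (d₁ d₂ : F) {q : F × F} (hq : q ∈ S) (u v : F) :
    wS S d₁ d₂ e (q.1 * u + e * q.2 * v) (q.1 * v - q.2 * u) = wS S d₁ d₂ e u v := by
  funext s t
  unfold wS
  rw [← ws_le_DKey hS hq fun p => d₁ * (p.1 * u + e * p.2 * v) ^ 2 = s ∧
    d₂ * (p.1 * v - p.2 * u) ^ 2 = t]
  congr 2
  refine Finset.filter_congr fun p _ => ?_
  have e1 : p.1 * (q.1 * u + e * q.2 * v) + e * p.2 * (q.1 * v - q.2 * u) =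
      (p.1 * q.1 - e * p.2 * q.2) * u + e * (p.1 * q.2 + p.2 * q.1) * v := by ring
  have e2 : p.1 * (q.1 * v - q.2 * u) - p.2 * (q.1 * u + e * q.2 * v) =
      (p.1 * q.1 - e * p.2 * q.2) * v - (p.1 * q.2 + p.2 * q.1) * u := by ring
  rw [e1, e2]

theorem inj_DKey {F : Type*} [Field F] (h2 : (2 : F) ≠ 0) {e : F} (he : e ≠ 0) {p p' y : F × F}
    (n1 : p.1 ^ 2 + e * p.2 ^ 2 = 1) (n2 : p'.1 ^ 2 + e * p'.2 ^ 2 = 1) (hy : y ≠ 0)
    (k1 : p.1 * y.1 + e * p.2 * y.2 = p'.1 * y.1 + e * p'.2 * y.2)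
    (k2 : p.1 * y.2 - p.2 * y.1 = p'.1 * y.2 - p'.2 * y.1) : p = p' := by
  by_cases hN : y.1 ^ 2 + e * y.2 ^ 2 = 0
  · have hu : y.1 ≠ 0 := by
      intro h
      rw [h] at hN
      have h3 : e * y.2 ^ 2 = 0 := by linear_combination hN
      exact hy (Prod.ext h (pow_eq_zero_iff two_ne_zero |>.1 ((mul_eq_zero.1 h3).resolve_left he)))
    have hZ : p.1 * y.1 + e * p.2 * y.2 ≠ 0 := by
      intro h
      apply pow_ne_zero 2 hu
      linear_combination (p.1 * y.1 - e * p.2 * y.2) * h - y.1 ^ 2 * n1 + e * p.2 ^ 2 * hN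
    have h3 : (p.1 - p'.1) * (2 * (p.1 * y.1 + e * p.2 * y.2)) = 0 := by
      linear_combination y.1 * n1 - y.1 * n2 + e * (p.2 + p'.2) * k2 + (p.1 - p'.1) * k1
    have h4 : p.1 = p'.1 := sub_eq_zero.1 ((mul_eq_zero.1 h3).resolve_right (mul_ne_zero h2 hZ))
    refine Prod.ext h4 (mul_right_cancel₀ hu ?_)
    linear_combination y.2 * h4 - k2
  · refine Prod.ext (mul_right_cancel₀ hN ?_) (mul_right_cancel₀ hN ?_)
    · linear_combination y.1 * k1 + e * y.2 * k2
    · linear_combination y.2 * k1 - y.1 * k2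

theorem key_rot {F : Type*} [Field F] [Fintype F] [DecidableEq F] (h2 : (2 : F) ≠ 0) {e : F}
    (he : e ≠ 0) {S : Finset (F × F)} (hS : Rot e S) (d₁ d₂ : F) :
    (Finset.univ.image fun y : F × F => wS S d₁ d₂ e y.1 y.2).card * S.card + 1 ≤
      Fintype.card F ^ 2 + S.card := by
  have h1 : S.card * ((Finset.univ.erase (0 : F × F)).image
      fun y : F × F => wS S d₁ d₂ e y.1 y.2).card ≤ (Finset.univ.erase (0 : F × F)).card := by
    refine Finset.mul_card_image_le_card _ _ fun b hb => ?_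
    obtain ⟨y, hy, rfl⟩ := Finset.mem_image.1 hb
    have hy0 : y ≠ 0 := (Finset.mem_erase.1 hy).1
    refine Finset.card_le_card_of_injOn
      (fun p => (p.1 * y.1 + e * p.2 * y.2, p.1 * y.2 - p.2 * y.1)) (fun p hp => ?_)
      fun p hp p' hp' h => ?_
    · have hp' : p ∈ S := hp
      simp only [Finset.coe_filter, Set.mem_ofPred_eq, Finset.mem_erase, Finset.mem_univ, and_true]
      refine ⟨fun h => hy0 ?_, ws_orbit_DKey hS d₁ d₂ hp' y.1 y.2⟩
      have n1 := hS.norm p hp'
      have k1 : p.1 * y.1 + e * p.2 * y.2 = 0 := congrArg Prod.fst h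
      have k2 : p.1 * y.2 - p.2 * y.1 = 0 := congrArg Prod.snd h
      refine Prod.ext ?_ ?_
      · change y.1 = 0
        linear_combination p.1 * k1 - e * p.2 * k2 - y.1 * n1
      · change y.2 = 0
        linear_combination p.2 * k1 + p.1 * k2 - y.2 * n1
    · exact inj_DKey h2 he (hS.norm p hp) (hS.norm p' hp') hy0 (congrArg Prod.fst h)
        (congrArg Prod.snd h)
  have h3 : (Finset.univ.image fun y : F × F => wS S d₁ d₂ e y.1 y.2).card ≤
      ((Finset.univ.erase (0 : F × F)).image fun y : F × F => wS S d₁ d₂ e y.1 y.2).card + 1 := by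
    conv_lhs => rw [← Finset.insert_erase (Finset.mem_univ (0 : F × F)), Finset.image_insert]
    exact Finset.card_insert_le _ _
  have h4 : (Finset.univ.erase (0 : F × F)).card + 1 = Fintype.card F ^ 2 := by
    rw [Finset.card_erase_add_one (Finset.mem_univ _), Finset.card_univ, Fintype.card_prod, sq]
  have h5 := Nat.mul_le_mul_right S.card h3
  rw [add_mul, one_mul, mul_comm _ S.card, mul_comm _ S.card] at h5
  rw [mul_comm _ S.card]
  omega

theorem circle_card {F : Type*} [Field F] [Fintype F] [DecidableEq F] (h2 : (2 : F) ≠ 0) {e : F}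
    (he : e ≠ 0) : Fintype.card F ≤
      (Finset.univ.filter fun p : F × F => p.1 ^ 2 + e * p.2 ^ 2 = 1).card + 1 := by
  have h1 : (Finset.univ.filter fun t : F => 1 + e * t ^ 2 = 0).card ≤ 2 := by
    rcases (Finset.univ.filter fun t : F => 1 + e * t ^ 2 = 0).eq_empty_or_nonempty with h | ⟨t, ht⟩
    · rw [h]
      exact Nat.zero_le _
    · refine (Finset.card_le_card (t := {t, -t}) fun x hx => ?_).trans Finset.card_le_two
      have k1 := (Finset.mem_filter.1 ht).2
      have k2 := (Finset.mem_filter.1 hx).2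
      have k3 : x ^ 2 = t ^ 2 := mul_left_cancel₀ he (by linear_combination k2 - k1)
      simpa using sq_eq_sq_iff_eq_or_eq_neg.1 k3
  have h3 := Finset.card_filter_add_card_filter_not (s := (Finset.univ : Finset F))
    fun t : F => 1 + e * t ^ 2 = 0
  have m1 : ((-1, 0) : F × F) ∈ Finset.univ.filter fun p : F × F => p.1 ^ 2 + e * p.2 ^ 2 = 1 := by
    simp
  have h4 := Finset.card_erase_add_one m1
  have a1 : ∀ t : F, 1 + e * t ^ 2 ≠ 0 → 1 + (1 - e * t ^ 2) / (1 + e * t ^ 2) ≠ 0 ∧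
      2 * t / (1 + e * t ^ 2) = t * (1 + (1 - e * t ^ 2) / (1 + e * t ^ 2)) := by
    intro t ht
    have e1 : 1 + (1 - e * t ^ 2) / (1 + e * t ^ 2) = 2 / (1 + e * t ^ 2) := by
      field_simp
      ring
    rw [e1]
    exact ⟨div_ne_zero h2 ht, by ring⟩
  have h5 : (Finset.univ.filter fun t : F => ¬ 1 + e * t ^ 2 = 0).card ≤
      ((Finset.univ.filter fun p : F × F => p.1 ^ 2 + e * p.2 ^ 2 = 1).erase (-1, 0)).card := by
    refine Finset.card_le_card_of_injOn
      (fun t => ((1 - e * t ^ 2) / (1 + e * t ^ 2), 2 * t / (1 + e * t ^ 2))) (fun t ht => ?_)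
      fun t ht t' ht' h => ?_
    · have k1 : 1 + e * t ^ 2 ≠ 0 := (Finset.mem_filter.1 ht).2
      refine Finset.mem_coe.2 (Finset.mem_erase.2 ⟨fun h => (a1 t k1).1 ?_,
        Finset.mem_filter.2 ⟨Finset.mem_univ _, ?_⟩⟩)
      · have k2 : (1 - e * t ^ 2) / (1 + e * t ^ 2) = -1 := congrArg Prod.fst h
        rw [k2, add_neg_cancel]
      · simp only
        field_simp
        ring
    · have k1 : 1 + e * t ^ 2 ≠ 0 := (Finset.mem_filter.1 ht).2
      have k2 : 1 + e * t' ^ 2 ≠ 0 := (Finset.mem_filter.1 ht').2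
      have k3 : (1 - e * t ^ 2) / (1 + e * t ^ 2) = (1 - e * t' ^ 2) / (1 + e * t' ^ 2) :=
        congrArg Prod.fst h
      have k4 : 2 * t / (1 + e * t ^ 2) = 2 * t' / (1 + e * t' ^ 2) := congrArg Prod.snd h
      rw [(a1 t k1).2, (a1 t' k2).2, ← k3] at k4
      exact mul_right_cancel₀ (a1 t k1).1 k4
  rw [Finset.card_univ] at h3
  omega

theorem circle_rot {F : Type*} [Field F] [Fintype F] [DecidableEq F] (e : F) :
    Rot e (Finset.univ.filter fun p : F × F => p.1 ^ 2 + e * p.2 ^ 2 = 1) := by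
  refine ⟨fun p hp => (Finset.mem_filter.1 hp).2, fun p hp p' hp' => ?_, by simp⟩
  have k1 := (Finset.mem_filter.1 hp).2
  have k2 := (Finset.mem_filter.1 hp').2
  refine Finset.mem_filter.2 ⟨Finset.mem_univ _, ?_⟩
  simp only
  linear_combination (p'.1 ^ 2 + e * p'.2 ^ 2) * k1 + k2

end Vale.Agent.P240
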