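import Vale.Agent.P240.Map
import Vale.Agent.P240.CycA
import Vale.Agent.P240.E.Def2

/-! P240 D/Trans. Transport of the propagation condition. Plan: transfer: pull the system back to H'
(Sys.of_map with the subtype), push along H.subtype comp e.symm (Sys.map). exists_equiv: elements of
L sup A are l a; each h in L sup A acts on L as a unique y in N (existence: closure under products,
e l for l in L; uniqueness by hc); theta h = y is an injective hom ((L sup A) inf centralizer L = bot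
by Outer and hZ) with theta l = e l; A' = image of A, range = L' sup A'. max_of_rank: the closure of
range t and x is commutative of exponent two and contains the closure of range t; compare cards. -/

namespace Vale.Agent.P240

open Matrix

open Subgroup

/-- `y` acts on `L'` as `h` acts on `L`. -/
def Act_DTrans {G M : Type*} [Group G] [Group M] {L : Subgroup G} {L' : Subgroup M} (e : L ≃* L')
    (N : Subgroup M) (h : G) (y : M) : Prop :=
  y ∈ N ∧ ∀ l l' : L, (l' : G) = h * l * h⁻¹ → (e l' : M) = y * e l * y⁻¹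

section
variable {G M : Type*} [Group G] [Group M] {L : Subgroup G} {L' N : Subgroup M} {e : L ≃* L'}

theorem mul_DTrans {h h' : G} {y y' : M} (hn : h' ∈ normalizer (L : Set G))
    (a : Act_DTrans e N h y) (b : Act_DTrans e N h' y') : Act_DTrans e N (h * h') (y * y') := by
  refine ⟨N.mul_mem a.1 b.1, fun l l' hl => ?_⟩
  have h1 := b.2 l ⟨h' * l * h'⁻¹, (mem_normalizer_iff.1 hn _).1 l.2⟩ rfl
  have h2 := a.2 ⟨h' * l * h'⁻¹, (mem_normalizer_iff.1 hn _).1 l.2⟩ l' (by rw [hl]; group)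
  rw [h2, h1]
  group

theorem inv_DTrans {h : G} {y : M} (a : Act_DTrans e N h y) : Act_DTrans e N h⁻¹ y⁻¹ := by
  refine ⟨N.inv_mem a.1, fun l l' hl => ?_⟩
  rw [a.2 l' l (by rw [hl]; group)]
  group

theorem self_DTrans (hN : L' ≤ N) (l₀ : L) : Act_DTrans e N l₀ (e l₀) := by
  refine ⟨hN (e l₀).2, fun l l' hl => ?_⟩
  have : l' = l₀ * l * l₀⁻¹ := Subtype.ext hl
  rw [this, map_mul, map_mul, map_inv]
  rfl

theorem uniq_DTrans (hc : ∀ y ∈ N, (∀ l ∈ L', y * l = l * y) → y = 1) {h : G} {y y' : M}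
    (hn : h ∈ normalizer (L : Set G)) (a : Act_DTrans e N h y) (b : Act_DTrans e N h y') :
    y = y' := by
  have := hc (y'⁻¹ * y) (N.mul_mem (N.inv_mem b.1) a.1) fun l hl => by
    obtain ⟨k, hk⟩ := e.surjective ⟨l, hl⟩
    have h1 := a.2 k ⟨h * k * h⁻¹, (mem_normalizer_iff.1 hn _).1 k.2⟩ rfl
    have h2 := b.2 k ⟨h * k * h⁻¹, (mem_normalizer_iff.1 hn _).1 k.2⟩ rfl
    rw [h1, hk] at h2
    have h3 : y * l * y⁻¹ = y' * l * y'⁻¹ := h2
    calc y'⁻¹ * y * l = y'⁻¹ * (y * l * y⁻¹) * y := by group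
      _ = l * (y'⁻¹ * y) := by rw [h3]; group
  exact (inv_mul_eq_one.1 this).symm

end

theorem PC.transfer {G M : Type*} [Group G] [Group M] {L H : Subgroup G} {L' H' : Subgroup M}
    (hL : L ≤ H) (hL' : L' ≤ H') (e : H ≃* H') (he : ∀ x : H, (x : G) ∈ L ↔ (e x : M) ∈ L')
    (h : PC L' H') : PC L H := by
  obtain ⟨m, Γ, iΓ, τ, c, γ₀, hS, hH, hsup, ⟨x, hxL, hx1, hxC⟩, hmax⟩ := h
  obtain ⟨σ, hσ⟩ : ∃ σ : Γ → Fin m → H', τ = fun γ j => H'.subtype (σ γ j) :=
    ⟨fun γ j => ⟨τ γ j, hH γ j⟩, rfl⟩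
  subst hσ
  obtain ⟨f, hf⟩ : ∃ f : H' →* G, ∀ z, f z = (e.symm z : G) :=
    ⟨H.subtype.comp e.symm.toMonoidHom, fun z => rfl⟩
  have finj : Function.Injective f := fun a b hab => by
    rw [hf, hf] at hab
    exact e.symm.injective (Subtype.ext hab)
  have fL : ∀ z : H', f z ∈ L ↔ (z : M) ∈ L' := fun z => by
    rw [hf, he, e.apply_symm_apply]
  have fH : ∀ g ∈ H, ∃ z, f z = g := fun g hg =>
    ⟨e ⟨g, hg⟩, by rw [hf, e.symm_apply_apply]⟩
  have hC : ∀ z : H', (z : M) ∈ closure (Set.range fun j => H'.subtype (σ γ₀ j)) ↔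
      f z ∈ closure (Set.range fun j => f (σ γ₀ j)) := fun z => by
    rw [clr_Map, clr_Map, mem_map_iff_mem finj]
    exact mem_map_iff_mem (f := H'.subtype) H'.subtype_injective
  refine ⟨m, Γ, iΓ, fun γ j => f (σ γ j), c, γ₀,
    (Sys.of_map H'.subtype H'.subtype_injective hS).map f finj, fun γ j => ?_, ?_, ?_, ?_⟩
  · show f (σ γ j) ∈ H
    rw [hf]
    exact (e.symm (σ γ j)).2
  · have h1 : L'.subgroupOf H' ⊔ closure (Set.range (σ γ₀)) = ⊤ := by
      apply Subgroup.map_injective H'.subtype_injective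
      rw [Subgroup.map_sup, map_subgroupOf_eq_of_le hL', ← clr_Map, ← MonoidHom.range_eq_map,
        range_subtype]
      exact hsup
    have h2 : (L'.subgroupOf H').map f = L := by
      ext g
      constructor
      · rintro ⟨z, hz, rfl⟩
        exact (fL z).2 hz
      · intro hg
        obtain ⟨z, rfl⟩ := fH g (hL hg)
        exact ⟨z, (fL z).1 hg, rfl⟩
    show L ⊔ closure (Set.range fun j => f (σ γ₀ j)) = H
    rw [clr_Map, ← h2, ← Subgroup.map_sup, h1]
    ext g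
    constructor
    · rintro ⟨z, -, rfl⟩
      rw [hf]
      exact (e.symm z).2
    · intro hg
      obtain ⟨z, rfl⟩ := fH g hg
      exact ⟨z, mem_top z, rfl⟩
  · refine ⟨f ⟨x, hL' hxL⟩, (fL _).2 hxL, fun h1 => hx1 ?_, (hC _).1 hxC⟩
    rw [← map_one f] at h1
    exact congrArg Subtype.val (finj h1)
  · intro g hg h1 h2
    obtain ⟨z, rfl⟩ := fH g hg
    refine (hC z).1 (hmax z z.2 ?_ fun j => ?_)
    · rw [← map_mul, ← map_one f] at h1
      exact congrArg Subtype.val (finj h1)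
    · have h3 : f z * f (σ γ₀ j) = f (σ γ₀ j) * f z := h2 j
      rw [← map_mul, ← map_mul] at h3
      exact congrArg Subtype.val (finj h3)

theorem exists_equiv {G M : Type*} [Group G] [Group M] {L A : Subgroup G} {L' N : Subgroup M}
    (e : L ≃* L') (hN : L' ≤ N) (hc : ∀ y ∈ N, (∀ l ∈ L', y * l = l * y) → y = 1)
    (hA : Outer L A) (hZ : L ⊓ centralizer (L : Set G) = ⊥)
    (hx : ∀ x ∈ A, ∃ y ∈ N, ∀ l l' : L, (l' : G) = x * l * x⁻¹ → (e l' : M) = y * e l * y⁻¹) :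
    ∃ A' : Subgroup M, A' ≤ N ∧ (∀ x ∈ A', ∀ y ∈ A', x * y = y * x) ∧ (∀ x ∈ A', x * x = 1) ∧
      ∃ e' : (L ⊔ A : Subgroup G) ≃* (L' ⊔ A' : Subgroup M),
        ∀ x : (L ⊔ A : Subgroup G), (x : G) ∈ L ↔ (e' x : M) ∈ L' := by
  have hK : L ⊔ A ≤ normalizer (L : Set G) := sup_le le_normalizer hA.1
  have hdec : ∀ h ∈ L ⊔ A, ∃ l ∈ L, ∃ a ∈ A, l * a = h := fun h hh => by
    have h1 : h ∈ ((L ⊔ A : Subgroup G) : Set G) := hh
    rw [coe_mul_of_right_le_normalizer_left L A hA.1] at h1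
    exact h1
  have hex : ∀ h : (L ⊔ A : Subgroup G), ∃ y, Act_DTrans e N h y := by
    rintro ⟨h, hh⟩
    obtain ⟨l, hl, a, ha, rfl⟩ := hdec h hh
    obtain ⟨y, hy⟩ := hx a ha
    exact ⟨_, mul_DTrans (hA.1 ha) (self_DTrans hN ⟨l, hl⟩) hy⟩
  choose θ₀ hθ₀ using hex
  obtain ⟨θ, hθ⟩ : ∃ θ : (L ⊔ A : Subgroup G) →* M,
      ∀ h : (L ⊔ A : Subgroup G), Act_DTrans e N h (θ h) :=
    ⟨MonoidHom.mk' θ₀ fun a b => uniq_DTrans hc (hK (a * b).2) (hθ₀ (a * b))
      (mul_DTrans (hK b.2) (hθ₀ a) (hθ₀ b)), hθ₀⟩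
  have θL : ∀ l : L, θ ⟨l, mem_sup_left l.2⟩ = e l := fun l =>
    uniq_DTrans hc (le_normalizer l.2) (hθ ⟨l, mem_sup_left l.2⟩) (self_DTrans hN l)
  have inj : Function.Injective θ := by
    refine (injective_iff_map_eq_one θ).2 ?_
    rintro ⟨h, hh⟩ h1
    have h2 := hθ ⟨h, hh⟩
    rw [h1] at h2
    have h3 : h ∈ centralizer (L : Set G) := by
      rw [mem_centralizer_iff]
      intro l hl
      have h4 := h2.2 ⟨l, hl⟩ ⟨h * l * h⁻¹, (mem_normalizer_iff.1 (hK hh) _).1 hl⟩ rfl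
      rw [one_mul, inv_one, mul_one] at h4
      have h5 : h * l * h⁻¹ = l := congrArg Subtype.val (e.injective (Subtype.ext h4))
      calc l * h = h * l * h⁻¹ * h := by rw [h5]
        _ = h * l := by group
    obtain ⟨l, hl, a, ha, rfl⟩ := hdec h hh
    have h7 : a ∈ L := by
      refine hA.2.2.2 ⟨ha, ?_⟩
      have := mul_mem (mem_sup_left (T := centralizer (L : Set G)) (L.inv_mem hl))
        (mem_sup_right (S := L) h3)
      simpa using this
    have h8 : l * a ∈ L ⊓ centralizer (L : Set G) := ⟨L.mul_mem hl h7, h3⟩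
    rw [hZ, mem_bot] at h8
    exact Subtype.ext h8
  have hL : (L.subgroupOf (L ⊔ A)).map θ = L' := by
    ext y
    constructor
    · rintro ⟨z, hz, rfl⟩
      have := θL ⟨z, hz⟩
      exact this ▸ (e ⟨z, hz⟩).2
    · intro hy
      obtain ⟨l, hl⟩ := e.surjective ⟨y, hy⟩
      exact ⟨⟨l, mem_sup_left l.2⟩, l.2, by rw [θL, hl]⟩
  have hr : θ.range = L' ⊔ (A.subgroupOf (L ⊔ A)).map θ := by
    rw [← hL, ← Subgroup.map_sup, ← subgroupOf_sup le_sup_left le_sup_right, subgroupOf_self,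
      MonoidHom.range_eq_map]
  refine ⟨(A.subgroupOf (L ⊔ A)).map θ, ?_, ?_, ?_,
    (MonoidHom.ofInjective inj).trans (MulEquiv.subgroupCongr hr), fun x => ?_⟩
  · rintro _ ⟨z, -, rfl⟩
    exact (hθ z).1
  · rintro _ ⟨z, hz, rfl⟩ _ ⟨w, hw, rfl⟩
    rw [← map_mul, ← map_mul]
    exact congrArg θ (Subtype.ext (hA.2.1 _ hz _ hw))
  · rintro _ ⟨z, hz, rfl⟩
    rw [← map_mul, ← map_one θ]
    exact congrArg θ (Subtype.ext (hA.2.2.1 _ hz))
  · show (x : G) ∈ L ↔ θ x ∈ L'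
    rw [← hL, mem_map_iff_mem inj]
    rfl

theorem max_of_rank {G : Type*} [Group G] [Finite G] {H : Subgroup G} {m : ℕ} {t : Fin m → G}
    (ht : ∀ j, t j ∈ H) (sq : ∀ j, t j * t j = 1) (comm : ∀ j j', t j * t j' = t j' * t j)
    (hc : Nat.card (closure (Set.range t)) = 2 ^ m)
    (hr : ∀ E : Subgroup G, E ≤ H → (∀ x ∈ E, ∀ y ∈ E, x * y = y * x) → (∀ x ∈ E, x ^ 2 = 1) →
      Nat.card E ≤ 2 ^ m) :
    ∀ x ∈ H, x * x = 1 → (∀ j, x * t j = t j * x) → x ∈ closure (Set.range t) := by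
  intro x hx h1 h2
  have hea := ea_CycA (insert x (Set.range t)) ?_ ?_
  · have hle : closure (Set.range t) ≤ closure (insert x (Set.range t)) :=
      closure_mono (Set.subset_insert _ _)
    have hH : closure (insert x (Set.range t)) ≤ H := by
      rw [closure_le]
      rintro _ (rfl | ⟨j, rfl⟩)
      · exact hx
      · exact ht j
    rw [eq_of_le_of_card_ge hle (hc ▸ hr _ hH hea.1 hea.2)]
    exact subset_closure (Set.mem_insert _ _)
  · rintro _ (rfl | ⟨j, rfl⟩)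
    · exact h1
    · exact sq j
  · rintro _ (rfl | ⟨j, rfl⟩) _ (rfl | ⟨k, rfl⟩)
    · rfl
    · exact h2 k
    · exact (h2 j).symm
    · exact comm j k

end Vale.Agent.P240
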