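import Vale.Agent.P240.D.Sys
import Vale.Agent.P240.D.Two
import Vale.Agent.P240.D.Trans
import Vale.Agent.P240.CycA
import Vale.Agent.P240.RankC

/-! P240 D/PC. The propagation condition for PH and PO. Plan: n = m + 1. pc_PH: sysD with d = 1, g0 = 1
(OD 1 = OG, tg g = tau g, tau_mem). pc_PO: delta = a^2 + b^2 a non-square (FiniteField.exists_nonsquare,
FiniteField.exists_root_sum_quadratic or a counting argument), d = (1, .., 1, delta, delta),
g0 = rotm (last index) 1 a b with transpose g0 * g0 = diagonal d; tg (g0 g) k lies in PO;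
tg g0 0 = mk (rf e_0) in PH; tg g0 (last) = mk (rf (last column of g0)) since -rho last is the
reflection in the last basis vector; two gives PH sup closure = PO. Maximality by max_of_rank,
card_closure, pgl_rank. pc_orth: if A' is not in PH then PH sup A' = PO by two. -/

namespace Vale.Agent.P240

open Matrix

variable {n : ℕ} {F : Type} [Field F] [Finite F]

theorem gen_DPC (h2 : (2 : F) ≠ 0) (hq : 37 ≤ Nat.card F) {m : ℕ} (hn : Odd (m + 1))
    (d : Fin (m + 1) → Fˣ) (g₀ : GL (Fin (m + 1)) F)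
    {L H : Subgroup (ProjGenLinGroup (Fin (m + 1)) F)}
    (ha : ∀ g ∈ OD d, ∀ k, tg m F (g₀ * g) k ∈ H)
    (hb : L ⊔ Subgroup.closure (Set.range (tg m F g₀)) = H) (hc : ∃ k, tg m F g₀ k ∈ L) :
    PC L H := by
  classical
  have : Finite (ProjGenLinGroup (Fin (m + 1)) F) :=
    Finite.of_surjective _ ProjGenLinGroup.mk_surjective
  have : Fintype (OD d) := Fintype.ofFinite _
  obtain ⟨c, hs⟩ := sysD h2 hq d g₀
  have e : g₀ * ((1 : OD d) : GL (Fin (m + 1)) F) = g₀ := mul_one g₀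
  refine ⟨m, OD d, inferInstance, fun g => tg m F (g₀ * g), c, 1, hs, fun g k => ha g g.2 k, ?_, ?_,
    ?_⟩
  · simp only [e]
    exact hb
  · obtain ⟨k, hk⟩ := hc
    simp only [e]
    refine ⟨_, hk, fun h => tg_indep h2 g₀ k ?_, Subgroup.subset_closure ⟨k, rfl⟩⟩
    rw [h]
    exact Subgroup.one_mem _
  · simp only [e]
    refine max_of_rank (fun k => ?_) (tg_sq g₀) (tg_comm g₀)
      (card_closure (tg_sq g₀) (tg_comm g₀) (tg_indep h2 g₀)) fun E _ h1 h3 => ?_
    · have h := ha 1 (Subgroup.one_mem _) k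
      rwa [mul_one] at h
    · obtain ⟨r, hr⟩ := hn
      exact pgl_rank h2 (Nat.succ_pos m) (by omega) (by omega) E h1 h3

omit [Finite F] in
theorem conj_DPC {h : GL (Fin n) F} {d : Fin n → Fˣ}
    (hh : (h : Matrix (Fin n) (Fin n) F)ᵀ * (h : Matrix (Fin n) (Fin n) F) =
      diagonal fun i => (d i : F)) {s : Fin n → Fˣ} (hs : ∀ i, s i * s i = 1) :
    h * dg s * h⁻¹ ∈ OG n F := by
  have h1 : ((dg s : GL (Fin n) F) : Matrix (Fin n) (Fin n) F)ᵀ * (diagonal fun i => (d i : F)) *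
      ((dg s : GL (Fin n) F) : Matrix (Fin n) (Fin n) F) = diagonal fun i => (d i : F) := by
    show (diagonal fun i => (s i : F))ᵀ * (diagonal fun i => (d i : F)) *
      (diagonal fun i => (s i : F)) = _
    rw [diagonal_transpose, diagonal_mul_diagonal, diagonal_mul_diagonal]
    refine congrArg diagonal (funext fun i => ?_)
    have h3 : (s i : F) * s i = 1 := by rw [← Units.val_mul, hs, Units.val_one]
    linear_combination (d i : F) * h3
  show ((h * dg s * h⁻¹ : GL (Fin n) F) : Matrix (Fin n) (Fin n) F)ᵀ *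
    ((h * dg s * h⁻¹ : GL (Fin n) F) : Matrix (Fin n) (Fin n) F) = 1
  rw [Units.val_mul, Units.val_mul, transpose_mul, transpose_mul, mul_assoc, mul_assoc,
    ← mul_assoc _ _ ((h⁻¹ : GL (Fin n) F) : Matrix (Fin n) (Fin n) F),
    ← mul_assoc _ (h : Matrix (Fin n) (Fin n) F), hh, ← mul_assoc, ← mul_assoc,
    mul_assoc _ _ (diagonal _ * _), ← mul_assoc _ (diagonal _), h1,
    ← hh, ← mul_assoc, ← transpose_mul, Units.mul_inv, transpose_one, one_mul, Units.mul_inv]

omit [Finite F] in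
theorem col_DPC {h : GL (Fin n) F} {d : Fin n → Fˣ}
    (hh : (h : Matrix (Fin n) (Fin n) F)ᵀ * (h : Matrix (Fin n) (Fin n) F) =
      diagonal fun i => (d i : F)) (i : Fin n) :
    (fun j => (h : Matrix (Fin n) (Fin n) F) j i) ⬝ᵥ (fun j => (h : Matrix (Fin n) (Fin n) F) j i) =
      d i ∧ h * dg (fun j => if j = i then -1 else 1) * h⁻¹ =
        rf fun j => (h : Matrix (Fin n) (Fin n) F) j i := by
  have h0 : ∀ k, (fun j => (h : Matrix (Fin n) (Fin n) F) j i) ⬝ᵥ
      (fun j => (h : Matrix (Fin n) (Fin n) F) j k) = if i = k then (d i : F) else 0 := by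
    intro k
    have h1 := congrFun (congrFun hh i) k
    rw [diagonal_apply] at h1
    exact h1
  have h1 := h0 i
  rw [if_pos rfl] at h1
  refine ⟨h1, ?_⟩
  rw [mul_inv_eq_iff_eq_mul]
  refine Units.ext ?_
  show (h : Matrix (Fin n) (Fin n) F) *
      (diagonal fun j => ((if j = i then -1 else 1 : Fˣ) : F)) = rfm _ * _
  rw [rfm, sub_mul, one_mul, smul_mul_assoc, vecMulVec_mul, h1]
  ext a b
  have h3 : ((fun j => (h : Matrix (Fin n) (Fin n) F) j i) ᵥ* (h : Matrix (Fin n) (Fin n) F)) b =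
      if i = b then (d i : F) else 0 := h0 b
  rw [mul_diagonal, Matrix.sub_apply, Matrix.smul_apply, vecMulVec_apply, h3, smul_eq_mul]
  by_cases hb : b = i
  · subst hb
    have h4 := (d b).ne_zero
    simp only [if_true, Units.val_neg, Units.val_one]
    field_simp
    ring
  · simp [hb, Ne.symm hb]

omit [Finite F] in
theorem rot_DPC {m : ℕ} (k : Fin m) {a b : F} (hab : a ^ 2 + b ^ 2 ≠ 0) :
    ∃ (d : Fin (m + 1) → Fˣ) (g : GL (Fin (m + 1)) F),
      (g : Matrix (Fin (m + 1)) (Fin (m + 1)) F)ᵀ * (g : Matrix (Fin (m + 1)) (Fin (m + 1)) F) =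
        (diagonal fun i => (d i : F)) ∧ (d k.succ : F) = a ^ 2 + b ^ 2 ∧
        ∀ i, i < k.castSucc → d i = 1 := by
  have h : k.castSucc ≠ k.succ := (Fin.castSucc_lt_succ).ne
  let d : Fin (m + 1) → Fˣ := fun i =>
    if i = k.castSucc then Units.mk0 _ hab else if i = k.succ then Units.mk0 _ hab else 1
  have h1 : (rotm k 1 a b)ᵀ = rotm k 1 a (-b) := by
    have h1 := tr_DFace k (e := 1) a b (d := fun _ => (1 : F)) (mul_one _)
    rwa [diagonal_one, mul_one, one_mul] at h1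
  have h2 : (rotm k 1 a b)ᵀ * rotm k 1 a b = diagonal fun i => (d i : F) := by
    rw [h1]
    refine Matrix.ext_iff_mulVec.2 fun y => funext fun i => ?_
    rw [← mulVec_mulVec, mulVec_diagonal]
    simp only [mulVec_DFace, if_true, if_neg h.symm, d]
    by_cases h1 : i = k.castSucc
    · rw [if_pos h1, if_pos h1, h1, Units.val_mk0]
      ring
    · by_cases h2 : i = k.succ
      · rw [if_neg h1, if_pos h2, if_neg h1, if_pos h2, h2, Units.val_mk0]
        ring
      · simp only [if_neg h1, if_neg h2, Units.val_one, one_mul]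
  have h3 : ((dg d⁻¹ : GL (Fin (m + 1)) F) : Matrix (Fin (m + 1)) (Fin (m + 1)) F) *
      (rotm k 1 a b)ᵀ * rotm k 1 a b = 1 := by
    rw [mul_assoc, h2]
    show ((dg d⁻¹ * dg d : GL (Fin (m + 1)) F) : Matrix (Fin (m + 1)) (Fin (m + 1)) F) = 1
    rw [dg_mul, inv_mul_cancel]
    exact diagonal_one
  refine ⟨d, ⟨rotm k 1 a b, _, mul_eq_one_comm.1 h3, h3⟩, h2, ?_, fun i hi => ?_⟩
  · simp only [d, if_neg h.symm, if_true, Units.val_mk0]
  · simp only [d, if_neg hi.ne, if_neg (hi.trans Fin.castSucc_lt_succ).ne]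

theorem sum_DPC (h2 : (2 : F) ≠ 0) : ∃ a b : F, ¬IsSquare (a ^ 2 + b ^ 2) := by
  classical
  have : Fintype F := Fintype.ofFinite F
  have hc : ringChar F ≠ 2 := fun h => h2 (by
    have h1 := ringChar.Nat.cast_ringChar (R := F)
    rw [h] at h1
    exact_mod_cast h1)
  obtain ⟨δ, hδ⟩ := FiniteField.exists_nonsquare hc
  have ho : Fintype.card F % 2 = 1 := FiniteField.odd_card_of_char_ne_two hc
  obtain ⟨a, b, hab⟩ := FiniteField.exists_root_sum_quadratic
    (f := Polynomial.X ^ 2) (g := Polynomial.X ^ 2 - Polynomial.C δ)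
    (Polynomial.degree_X_pow 2) (Polynomial.degree_X_pow_sub_C (by norm_num) δ) ho
  refine ⟨a, b, ?_⟩
  have h1 : a ^ 2 + b ^ 2 = δ := by
    simp only [Polynomial.eval_pow, Polynomial.eval_X, Polynomial.eval_sub, Polynomial.eval_C] at hab
    linear_combination hab
  rwa [h1]

theorem sup_DPC (h2 : (2 : F) ≠ 0) (hn : Odd n) (h3 : 3 ≤ n) {w : Fin n → F}
    (hw : ¬IsSquare (w ⬝ᵥ w)) {A : Subgroup (ProjGenLinGroup (Fin n) F)} (hA : A ≤ PO n F)
    (h : ProjGenLinGroup.mk (rf w) ∈ PH n F ⊔ A) : PH n F ⊔ A = PO n F := by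
  refine le_antisymm (sup_le PH_le hA) fun y hy => ?_
  rcases two h2 hn h3 hw hy with h1 | h1
  · exact Subgroup.mem_sup_left h1
  · exact (Subgroup.mul_mem_cancel_right _ h).1 (Subgroup.mem_sup_left h1)

theorem pc_PH (h2 : (2 : F) ≠ 0) (hq : 37 ≤ Nat.card F) (hn : Odd n) (h3 : 3 ≤ n) :
    PC (PH n F) (PH n F) := by
  obtain ⟨m, rfl⟩ : ∃ m, n = m + 1 := ⟨n - 1, by omega⟩
  have h1 : ∀ k, tg m F 1 k ∈ PH (m + 1) F := fun k => tau_mem (1 : OG (m + 1) F) k
  refine gen_DPC h2 hq hn 1 1 (fun g hg k => ?_) ?_ ⟨⟨0, by omega⟩, h1 _⟩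
  · have h : g ∈ OG (m + 1) F := by
      have h : (g : Matrix (Fin (m + 1)) (Fin (m + 1)) F)ᵀ * diagonal (fun _ => (1 : F)) *
        (g : Matrix (Fin (m + 1)) (Fin (m + 1)) F) = diagonal fun _ => (1 : F) := hg
      rwa [diagonal_one, mul_one] at h
    rw [one_mul]
    exact tau_mem (⟨g, h⟩ : OG (m + 1) F) k
  · refine sup_eq_left.2 ((Subgroup.closure_le _).2 ?_)
    rintro _ ⟨k, rfl⟩
    exact h1 k

theorem pc_PO (h2 : (2 : F) ≠ 0) (hq : 37 ≤ Nat.card F) (hn : Odd n) (h3 : 3 ≤ n) :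
    PC (PH n F) (PO n F) := by
  obtain ⟨m, rfl⟩ : ∃ m, n = m + 1 + 1 := ⟨n - 2, by omega⟩
  obtain ⟨a, b, hab⟩ := sum_DPC h2
  obtain ⟨d, g₀, h0, hl, hf⟩ := rot_DPC (Fin.last m) (a := a) (b := b) fun h =>
    hab (h ▸ IsSquare.zero)
  have ha : ∀ g ∈ OD d, ∀ k, tg (m + 1) F (g₀ * g) k ∈ PO (m + 1 + 1) F := by
    intro g hg k
    refine Subgroup.mem_map_of_mem _ (conj_DPC (d := d) ?_ fun i => ?_)
    · rw [Units.val_mul, transpose_mul, mul_assoc, ← mul_assoc _ g₀.val, h0,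
        ← mul_assoc]
      exact hg
    · split_ifs <;> simp
  refine gen_DPC h2 hq hn d g₀ ha ?_ ⟨0, ?_⟩
  · obtain ⟨h4, h5⟩ := col_DPC h0 (Fin.last m).succ
    refine sup_DPC h2 hn h3 (by rwa [h4, hl]) ((Subgroup.closure_le _).2 ?_)
      (Subgroup.mem_sup_right (Subgroup.subset_closure ⟨Fin.last m, ?_⟩))
    · rintro _ ⟨k, rfl⟩
      have h := ha 1 (Subgroup.one_mem _) k
      rwa [mul_one] at h
    · rw [← h5, tg, map_mul, map_mul, map_mul, map_mul]
      refine congrArg (fun x => _ * x * _) (ProjGenLinGroup.mk_eq_mk_iff.2 ⟨-1, Units.ext ?_⟩)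
      show (diagonal fun i => ((if i ≤ (Fin.last m).castSucc then -1 else 1 : Fˣ) : F)) *
        (diagonal fun _ => ((-1 : Fˣ) : F)) =
          diagonal fun i => ((if i = (Fin.last m).succ then -1 else 1 : Fˣ) : F)
      rw [diagonal_mul_diagonal]
      refine congrArg diagonal (funext fun i => ?_)
      by_cases hi : i = (Fin.last m).succ
      · rw [if_pos hi, if_neg (by rw [hi]; exact Fin.castSucc_lt_succ.not_ge)]
        simp
      · rw [if_neg hi, if_pos]
        · simp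
        · have h6 := i.2
          have h7 : (i : ℕ) ≠ m + 1 := fun h => hi (Fin.ext h)
          show (i : ℕ) ≤ m
          omega
  · obtain ⟨h4, h5⟩ := col_DPC h0 0
    have h6 : rho (m + 1) F 0 = dg fun j => if j = 0 then -1 else 1 := by
      refine congrArg dg (funext fun i => ?_)
      simp
    rw [tg, h6, h5]
    refine rf_sq h2 hn h3 ?_
    rw [h4, hf 0 (by
      show 0 < m
      omega)]
    exact IsSquare.one

theorem pc_orth (h2 : (2 : F) ≠ 0) (hq : 37 ≤ Nat.card F) (hn : Odd n) (h3 : 3 ≤ n)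
    {A : Subgroup (ProjGenLinGroup (Fin n) F)} (hA : A ≤ PO n F) : PC (PH n F) (PH n F ⊔ A) := by
  by_cases h : A ≤ PH n F
  · rw [sup_eq_left.2 h]
    exact pc_PH h2 hq hn h3
  · obtain ⟨y, hy, hy'⟩ := SetLike.not_le_iff_exists.1 h
    obtain ⟨a, b, hab⟩ := sum_DPC h2
    obtain ⟨m, rfl⟩ : ∃ m, n = m + 1 + 1 := ⟨n - 2, by omega⟩
    obtain ⟨d, g₀, h0, hl, -⟩ := rot_DPC (Fin.last m) (a := a) (b := b) fun h =>
      hab (h ▸ IsSquare.zero)
    have h4 := (col_DPC h0 (Fin.last m).succ).1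
    rw [hl] at h4
    rw [← h4] at hab
    rw [sup_DPC h2 hn h3 hab hA ((Subgroup.mul_mem_cancel_left _ (Subgroup.mem_sup_right hy)).1
      (Subgroup.mem_sup_left ((two h2 hn h3 hab (hA hy)).resolve_left hy')))]
    exact pc_PO h2 hq hn h3

end Vale.Agent.P240
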