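import Vale.Agent.P240.D.GS2
import Vale.Agent.P240.D.Key
import Vale.Agent.P240.Psi

/-! P240 D/Psi. The weight function. Plan: Sq = image of squaring, 2 * card Sq >= q + 1; X0 a subset of
d last * Sq with a0 elements, X1 k = d k * Sq minus X0; R = Fin t times Fin r; by key_rot and hs each
image finset has at most r elements, choose a map from Fin r covering it; gs2 with a1 = card Sq - a0;
choose z; rewrite the sum over S as the double sum with weights wS (see Psi.lean). -/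

namespace Vale.Agent.P240

open Matrix

theorem sum_DPsi {F : Type*} [Field F] [Fintype F] [DecidableEq F] (S : Finset (F × F))
    (d₁ d₂ e u v : F) (φ : F → F → ℚ) :
    ∑ p ∈ S, φ (d₁ * (p.1 * u + e * p.2 * v) ^ 2) (d₂ * (p.1 * v - p.2 * u) ^ 2) =
      ∑ s, ∑ t, wS S d₁ d₂ e u v s t * φ s t := by
  simp only [wS, Finset.card_filter, Nat.cast_sum, Finset.sum_mul]
  symm
  refine (Finset.sum_congr rfl fun s _ => Finset.sum_comm).trans (Finset.sum_comm.trans ?_)
  refine Finset.sum_congr rfl fun p _ => ?_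
  rw [Finset.sum_eq_single (d₁ * (p.1 * u + e * p.2 * v) ^ 2),
    Finset.sum_eq_single (d₂ * (p.1 * v - p.2 * u) ^ 2)]
  · simp
  · intro t _ ht
    rw [if_neg fun h => ht h.2.symm]
    simp
  · simp
  · intro s _ hs
    refine Finset.sum_eq_zero fun t _ => ?_
    rw [if_neg fun h => hs h.1.symm]
    simp
  · simp

theorem cover_DPsi {α : Type*} [Inhabited α] (T : Finset α) {r : ℕ} (h : T.card ≤ r) :
    ∃ f : Fin r → α, ∀ a ∈ T, ∃ j, f j = a := by
  refine ⟨fun j => if h : j.val < T.card then (T.equivFin.symm ⟨j, h⟩ : α) else default,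
    fun a ha => ⟨Fin.castLE h (T.equivFin ⟨a, ha⟩), ?_⟩⟩
  simp

theorem card_DPsi {F : Type*} [Field F] [Fintype F] [DecidableEq F] (c : Fˣ) :
    (Finset.univ.image fun a : F => (c : F) * a ^ 2).card =
      (Finset.univ.image fun a : F => a ^ 2).card := by
  rw [← Finset.card_image_of_injective (Finset.univ.image fun a : F => a ^ 2)
    (mul_right_injective₀ c.ne_zero), Finset.image_image]
  rfl

theorem psi_gen {F : Type*} [Field F] [Fintype F] [DecidableEq F] (h2 : (2 : F) ≠ 0) {m : ℕ}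
    (d : Fin (m + 1) → Fˣ) {t r a₀ : ℕ} (S : Fin m → Fin t → Finset (F × F))
    (hS : ∀ k i, Rot (d k.succ / d k.castSucc : F) (S k i))
    (hs : ∀ k i, Fintype.card F ^ 2 ≤ r * (S k i).card) (h0 : 0 < a₀)
    (hr : 2 * (t * r + 2 * a₀ * a₀) ≤ a₀ * (Fintype.card F + 1)) :
    ∃ (X₀ : Finset F) (ψ : (Fin (m + 1) → F) → ℚ) (z : Fin (m + 1) → F),
      ψ (fun i => (d i : F) * z i ^ 2) ≠ 0 ∧
      (∀ x, ψ x ≠ 0 → x (Fin.last m) ∈ X₀ ∧ ∀ k : Fin m, x k.castSucc ∉ X₀) ∧
      ∀ k i, Van d ψ k (S k i) := by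
  have h1 := sq_Psi (F := F)
  have hq : 0 < Fintype.card F := Fintype.card_pos
  obtain ⟨Q, hQ⟩ : ∃ Q, Q = (Finset.univ.image fun a : F => a ^ 2).card := ⟨_, rfl⟩
  rw [← hQ] at h1
  have h3 : t * r + 2 * a₀ * a₀ ≤ a₀ * Q := by
    have := Nat.mul_le_mul_left a₀ h1
    nlinarith
  have h4 : a₀ ≤ Q := by
    refine Nat.le_of_mul_le_mul_left ?_ h0
    nlinarith [Nat.zero_le (t * r), Nat.zero_le (a₀ * a₀)]
  obtain ⟨X₀, hX, h5⟩ := Finset.exists_subset_card_eq
    (s := Finset.univ.image fun a : F => (d (Fin.last m) : F) * a ^ 2) (n := a₀)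
    (by rw [card_DPsi, ← hQ]; exact h4)
  have hc : ∀ k i, ∃ f : Fin r → F → F → ℚ, ∀ a ∈ Finset.univ.image fun y : F × F =>
      wS (S k i) (d k.castSucc) (d k.succ) (d k.succ / d k.castSucc) y.1 y.2, ∃ j, f j = a := by
    intro k i
    refine cover_DPsi _ ?_
    have h6 := key_rot h2 (div_ne_zero (d k.succ).ne_zero (d k.castSucc).ne_zero) (hS k i)
      (d k.castSucc) (d k.succ)
    have h7 := hs k i
    refine Nat.lt_succ_iff.1 (Nat.lt_of_mul_lt_mul_right (a := (S k i).card) ?_)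
    rw [Nat.succ_mul]
    omega
  choose f hf using hc
  obtain ⟨b, hb⟩ := Nat.exists_eq_add_of_le h4
  obtain ⟨ψ, hψ, h6, h7⟩ := gs2 m (fun k (ρ : Fin t × Fin r) => f k ρ.1 ρ.2) X₀
    (fun k => (Finset.univ.image fun a : F => (d k.castSucc : F) * a ^ 2) \ X₀) b
    (fun k => by
      have h8 := Finset.le_card_sdiff X₀
        (Finset.univ.image fun a : F => (d k.castSucc : F) * a ^ 2)
      rw [card_DPsi, ← hQ, h5] at h8
      omega) (Finset.card_pos.mp (by omega)) (by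
      rw [Fintype.card_prod, Fintype.card_fin, Fintype.card_fin, h5]
      rw [hb] at h3
      nlinarith)
  obtain ⟨x, hx⟩ := Function.ne_iff.mp hψ
  have h8 : ∀ i, ∃ a : F, (d i : F) * a ^ 2 = x i := fun i => by
    have h9 : x i ∈ Finset.univ.image fun a : F => (d i : F) * a ^ 2 := by
      refine Fin.lastCases (hX (h6 x hx).1) (fun k => ?_) i
      exact (Finset.mem_sdiff.mp ((h6 x hx).2 k)).1
    obtain ⟨a, -, ha⟩ := Finset.mem_image.mp h9
    exact ⟨a, ha⟩
  choose z hz using h8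
  refine ⟨X₀, ψ, z, ?_, fun y hy => ⟨(h6 y hy).1, fun k => (Finset.mem_sdiff.mp ((h6 y hy).2 k)).2⟩,
    fun k i y u v => ?_⟩
  · rw [funext hz]
    exact hx
  · rw [sum_DPsi (S k i) _ _ _ u v fun s t => ψ (upd y k s t)]
    obtain ⟨j, hj⟩ := hf k i _ (Finset.mem_image.mpr ⟨(u, v), Finset.mem_univ _, rfl⟩)
    have h9 := h7 y k (i, j)
    simp only [hj] at h9
    exact h9

end Vale.Agent.P240
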