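import Vale.Agent.P240.Mem
import Vale.Agent.P240.D.Defs

/-! P240 D/Refl. Reflections. Plan: witt: if u - v is not isotropic rf (u - v) maps u to v; otherwise
u + v is not isotropic and rf v * rf (u + v) maps u to v. rf_pair: rf u * rf v with v = a • g u is
the commutator of rf u and g. cd: by induction on k every g in OG fixing the first k basis vectors
(downward induction) is a product of reflections: the reflections used in witt for u = g e_k, v = e_k
fix the first k basis vectors. -/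

namespace Vale.Agent.P240

open Matrix

variable {n : ℕ} {F : Type*} [Field F]

theorem mulVec_DRefl (v x : Fin n → F) :
    (rf v : Matrix (Fin n) (Fin n) F) *ᵥ x = x - (2 / (v ⬝ᵥ v) * (v ⬝ᵥ x)) • v := by
  show rfm v *ᵥ x = _
  rw [rfm, sub_mulVec, one_mulVec, smul_mulVec, vecMulVec_mulVec, op_smul_eq_smul, smul_smul]

theorem dot_DRefl {g : GL (Fin n) F} (hg : g ∈ OG n F) (x y : Fin n → F) :
    (g : Matrix (Fin n) (Fin n) F) *ᵥ x ⬝ᵥ (g : Matrix (Fin n) (Fin n) F) *ᵥ y = x ⬝ᵥ y := by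
  rw [dotProduct_mulVec, vecMul_mulVec, show _ᵀ * _ = 1 from hg, vecMul_one]

theorem sub_DRefl {u v : Fin n → F} (h : v ⬝ᵥ v = u ⬝ᵥ u) (h0 : (u - v) ⬝ᵥ (u - v) ≠ 0) :
    (rf (u - v) : Matrix (Fin n) (Fin n) F) *ᵥ u = v := by
  have e : 2 * ((u - v) ⬝ᵥ u) = (u - v) ⬝ᵥ (u - v) := by
    simp only [sub_dotProduct, dotProduct_sub, h, dotProduct_comm v u]
    ring
  rw [mulVec_DRefl, div_mul_eq_mul_div, e, div_self h0, one_smul, sub_sub_cancel]

theorem wit_DRefl (h2 : (2 : F) ≠ 0) {u v : Fin n → F} (hu : u ⬝ᵥ u ≠ 0) (h : v ⬝ᵥ v = u ⬝ᵥ u) :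
    ∃ g ∈ Subgroup.closure (Set.range (rf (n := n) (F := F))),
      (g : Matrix (Fin n) (Fin n) F) *ᵥ u = v ∧
        ∀ x, u ⬝ᵥ x = 0 → v ⬝ᵥ x = 0 → (g : Matrix (Fin n) (Fin n) F) *ᵥ x = x := by
  by_cases h0 : (u - v) ⬝ᵥ (u - v) = 0
  swap
  · refine ⟨rf (u - v), Subgroup.subset_closure ⟨_, rfl⟩, sub_DRefl h h0, fun x a b => ?_⟩
    rw [mulVec_DRefl, sub_dotProduct u v x, a, b, sub_zero, mul_zero, zero_smul, sub_zero]
  have h1 : (u - -v) ⬝ᵥ (u - -v) ≠ 0 := fun e => mul_ne_zero (mul_ne_zero h2 h2) hu (by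
    simp only [sub_dotProduct, dotProduct_sub, neg_dotProduct, dotProduct_neg, h] at h0 e
    linear_combination h0 + e)
  refine ⟨rf v * rf (u - -v), Subgroup.mul_mem _ (Subgroup.subset_closure ⟨_, rfl⟩)
    (Subgroup.subset_closure ⟨_, rfl⟩), ?_, fun x a b => ?_⟩
  · rw [Units.val_mul, ← mulVec_mulVec, sub_DRefl (by rw [neg_dotProduct_neg, h]) h1, mulVec_DRefl,
      dotProduct_neg, mul_neg, div_mul_cancel₀ _ (h ▸ hu), neg_smul, two_smul]
    abel
  · rw [Units.val_mul, ← mulVec_mulVec, mulVec_DRefl _ x, sub_dotProduct u (-v) x, neg_dotProduct v x,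
      a, b, neg_zero, sub_zero, mul_zero, zero_smul, sub_zero, mulVec_DRefl, b, mul_zero, zero_smul,
      sub_zero]

theorem rf_mem (v : Fin n → F) : rf v ∈ OG n F := by
  show (rfm v)ᵀ * rfm v = 1
  have e : (rfm v)ᵀ = rfm v := by
    rw [rfm, transpose_sub, transpose_one, transpose_smul, transpose_vecMulVec]
  rw [e, rfm_sq]

theorem rf_conj {g : GL (Fin n) F} (hg : g ∈ OG n F) (v : Fin n → F) :
    g * rf v * g⁻¹ = rf ((g : Matrix (Fin n) (Fin n) F) *ᵥ v) := by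
  rw [mul_inv_eq_iff_eq_mul]
  refine Units.ext (ext_iff_mulVec.2 fun x => ?_)
  rw [Units.val_mul, Units.val_mul, ← mulVec_mulVec, ← mulVec_mulVec, mulVec_DRefl, mulVec_DRefl,
    dot_DRefl hg, dot_DRefl hg, mulVec_sub, mulVec_smul]

theorem rf_smul {a : F} (ha : a ≠ 0) (v : Fin n → F) : rf (a • v) = rf v := by
  refine Units.ext (ext_iff_mulVec.2 fun x => ?_)
  rw [mulVec_DRefl, mulVec_DRefl, smul_dotProduct, smul_dotProduct, dotProduct_smul, smul_smul]
  simp only [smul_eq_mul]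
  congr 2
  by_cases h : v ⬝ᵥ v = 0
  · simp [h]
  · field_simp

theorem witt (h2 : (2 : F) ≠ 0) {u v : Fin n → F} (hu : u ⬝ᵥ u ≠ 0) (h : v ⬝ᵥ v = u ⬝ᵥ u) :
    ∃ g ∈ OG n F, (g : Matrix (Fin n) (Fin n) F) *ᵥ u = v := by
  obtain ⟨g, hg, e, -⟩ := wit_DRefl h2 hu h
  exact ⟨g, (Subgroup.closure_le _).2 (Set.range_subset_iff.2 rf_mem) hg, e⟩

theorem rf_pair (h2 : (2 : F) ≠ 0) {u v : Fin n → F} (hu : u ⬝ᵥ u ≠ 0) {a : F} (ha : a ≠ 0)
    (h : v ⬝ᵥ v = a ^ 2 * (u ⬝ᵥ u)) : rf u * rf v ∈ ⁅OG n F, OG n F⁆ := by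
  obtain ⟨g, hg, e⟩ := witt h2 hu (v := a⁻¹ • v) (by
    rw [smul_dotProduct, dotProduct_smul, h, smul_eq_mul, smul_eq_mul]
    field_simp)
  have h1 := Subgroup.commutator_mem_commutator (rf_mem u) hg
  have h3 : (rf u)⁻¹ = rf u := Units.ext rfl
  rwa [commutatorElement_def, h3, mul_assoc, mul_assoc, ← mul_assoc g, rf_conj hg, e,
    rf_smul (inv_ne_zero ha)] at h1

theorem cd (h2 : (2 : F) ≠ 0) : OG n F ≤ Subgroup.closure (Set.range (rf (n := n) (F := F))) := by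
  have key : ∀ s : Finset (Fin n), ∀ g ∈ OG n F, (∀ i ∉ s,
      (g : Matrix (Fin n) (Fin n) F) *ᵥ Pi.single i 1 = Pi.single i 1) →
      g ∈ Subgroup.closure (Set.range (rf (n := n) (F := F))) := fun s => by
    induction s using Finset.induction_on with
    | empty =>
      intro g _ h
      obtain rfl : g = 1 := Units.ext (ext_of_mulVec_single fun i => by
        rw [h i (Finset.notMem_empty i), Units.val_one, one_mulVec])
      exact Subgroup.one_mem _
    | insert k s hk ih =>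
      intro g hg h
      obtain ⟨r, hr, e, hx⟩ := wit_DRefl h2
        (u := (g : Matrix (Fin n) (Fin n) F) *ᵥ Pi.single k 1) (v := Pi.single k 1)
        (by rw [dot_DRefl hg]; simp) (dot_DRefl hg _ _).symm
      refine (Subgroup.mul_mem_cancel_left _ hr).1 (ih _ (Subgroup.mul_mem _
        ((Subgroup.closure_le _).2 (Set.range_subset_iff.2 rf_mem) hr) hg) fun i hi => ?_)
      rw [Units.val_mul, ← mulVec_mulVec]
      rcases eq_or_ne i k with rfl | hik
      · exact e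
      have h1 := h i (by simp [hi, hik])
      have h3 : (Pi.single k 1 : Fin n → F) ⬝ᵥ Pi.single i 1 = 0 := by simp [hik.symm]
      rw [h1]
      refine hx _ ?_ h3
      rw [← h1, dot_DRefl hg, h3]
  exact fun g hg => key Finset.univ g hg fun i hi => absurd (Finset.mem_univ i) hi

end Vale.Agent.P240
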