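import Vale.Agent.P240.E.Defs

/-! P240 D/Stmt: short names used in the elimination hand-ins. -/

namespace Vale.Agent.P240

open Matrix

/-- `G` satisfies the hypotheses of a minimal counterexample at `p`, except for the vanishing of
homology: `O_p(G) = 1`, and every proper subgroup `K` with `O_p(K) = 1` has nonzero reduced rational
homology. -/
def MinHyp (p : ℕ) (G : Type) [Group G] : Prop :=
  NoOp p (⊤ : Subgroup G) ∧ ∀ K : Subgroup G, K ≠ ⊤ → NoOp p K → HQ p K

/-- Through the isomorphism `e`, conjugation by `x` acts on `L` as conjugation by `y` on `L'`. -/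
def ActsAs {G M : Type} [Group G] [Group M] {L : Subgroup G} {L' : Subgroup M} (e : L ≃* L')
    (x : G) (y : M) : Prop :=
  ∀ l l' : L, (l' : G) = x * l * x⁻¹ → (e l' : M) = y * e l * y⁻¹

end Vale.Agent.P240
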