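import Vale.Agent.P240.D.Psi
import Vale.Agent.P240.D.Face
import Vale.Agent.P240.D.Det
import Vale.Agent.P240.Map

/-! P240 D/Sys. The system for a diagonal form. Plan: psi_gen with t = 1, S = the full circle
(circle_rot, circle_card), r = q + 2, a0 = 5; face from avg with Psi g = Phi (tg g); det1, det2 from
mono_gl, mono_col, mono_le. Then conjugate by mk g0 (Sys.map with MulAut.conj). -/

namespace Vale.Agent.P240

open Matrix

theorem one_DSys {F : Type*} [Field F] [Finite F] (h2 : (2 : F) ≠ 0) (hq : 37 ≤ Nat.card F)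
    {m : ℕ} (d : Fin (m + 1) → Fˣ) [Fintype (OD d)] :
    ∃ c : OD d → ℚ, Sys (fun (g : OD d) => tg m F g) c 1 := by
  classical
  have := Fintype.ofFinite F
  rw [Nat.card_eq_fintype_card] at hq
  obtain ⟨X₀, ψ, z, hz, h1, h3⟩ := psi_gen h2 d (t := 1) (r := Fintype.card F + 2) (a₀ := 5)
    (fun k _ => Finset.univ.filter fun p : F × F =>
      p.1 ^ 2 + (d k.succ / d k.castSucc : F) * p.2 ^ 2 = 1) (fun k _ => circle_rot _)
    (fun k _ => by
      have h := circle_card h2 (div_ne_zero (d k.succ).ne_zero (d k.castSucc).ne_zero)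
      nlinarith) (by norm_num) (by omega)
  have key : ∀ g : OD d, wd d ψ z g ≠ 0 → Subgroup.closure (Set.range (tg m F g)) =
      Subgroup.closure (Set.range (tg m F 1)) →
      (∀ j j', tg m F g j' ∈ Subgroup.closure (tg m F 1 '' Set.Iic j) → j' ≤ j) ∧
        ((∀ j, tg m F g j ∈ Subgroup.closure (tg m F 1 '' Set.Iic j)) →
          wd d ψ z g = wd d ψ z 1) := fun g hg hE => by
    obtain ⟨σ, hσ⟩ := mono_gl h2 (g : GL (Fin (m + 1)) F) fun k =>
      hE ▸ Subgroup.subset_closure ⟨k, rfl⟩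
    obtain ⟨h4, h5⟩ := mono_col hz h1 g.2 hσ
    obtain ⟨h6, _, h7⟩ := mono_le h2 hσ (h4 hg)
    exact ⟨h6, fun h => h5 (h7 h)⟩
  refine ⟨fun g => wd d ψ z g, fun g => tg_sq _, fun g => tg_comm _, fun g => tg_indep h2 _,
    fun k Φ hΦ => avg d (circle_rot _) (h3 k 0) z (fun g => Φ (tg m F g))
      fun p _ B _ _ hB g => hΦ _ _ fun j hj => ?_, ?_, fun g hg hE => (key g hg hE).1,
    fun g hg hE => (key g hg hE).2⟩
  · refine congrArg ProjGenLinGroup.mk ?_
    rw [mul_assoc g B, hB j hj]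
    group
  · simpa [wd] using hz

theorem sysD {F : Type*} [Field F] [Finite F] (h2 : (2 : F) ≠ 0) (hq : 37 ≤ Nat.card F) {m : ℕ}
    (d : Fin (m + 1) → Fˣ) [Fintype (OD d)] (g₀ : GL (Fin (m + 1)) F) :
    ∃ c : OD d → ℚ, Sys (fun (g : OD d) => tg m F (g₀ * g)) c 1 := by
  obtain ⟨c, hc⟩ := one_DSys h2 hq d
  have e : (fun (g : OD d) => tg m F (g₀ * g)) = fun (g : OD d) j =>
      (MulAut.conj (ProjGenLinGroup.mk g₀)).toMonoidHom (tg m F g j) := by
    funext g j
    simp only [tg, MulEquiv.coe_toMonoidHom, MulAut.conj_apply, map_mul, map_inv]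
    group
  rw [e]
  exact ⟨c, hc.map _ (MulAut.conj (ProjGenLinGroup.mk g₀)).injective⟩

end Vale.Agent.P240
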